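import Mathlib
import Crest.Prelude.Def_BernoulliConv

set_option autoImplicit false

open Polynomial Crest.AnalysisR

namespace Crest.Agent.Salem

lemma trace_int {β : ℝ} {α : ℂ} (hβ : β ≠ 0) (hα : ‖α‖ = 1) {A B : ℤ}
    (hA : β + β⁻¹ + 2 * α.re = A) (hB : (β + β⁻¹) * (2 * α.re) = B) (l : ℤ) :
    ∃ n : ℤ, β ^ l + β ^ (-l) + 2 * (α ^ l).re = n := by
  have hα0 : α ≠ 0 := by intro h0; simp [h0] at hα
  have hinv : α⁻¹ = (starRingEnd ℂ) α := by
    rw [Complex.inv_def, Complex.normSq_eq_norm_sq, hα]; simp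
  have hre : ∀ k : ℕ, (α ^ (k + 2)).re = 2 * α.re * (α ^ (k + 1)).re - (α ^ k).re := by
    intro k
    have e : α ^ (k + 2) = ((2 * α.re : ℝ) : ℂ) * α ^ (k + 1) - α ^ k := by
      rw [← Complex.add_conj, ← hinv]; field_simp; ring
    rw [e, Complex.sub_re, Complex.re_ofReal_mul]
  set t := β + β⁻¹ with ht
  set v := 2 * α.re with hv
  have key : ∀ k : ℕ, (∃ m n : ℤ, β ^ k + β⁻¹ ^ k = m + n * t ∧ 2 * (α ^ k).re = m + n * v) ∧
      (∃ m n : ℤ, β ^ (k + 1) + β⁻¹ ^ (k + 1) = m + n * t ∧ 2 * (α ^ (k + 1)).re = m + n * v) := by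
    intro k
    induction k with
    | zero =>
      refine ⟨⟨2, 0, by norm_num, by norm_num⟩, ⟨0, 1, by simp [ht], by simp [hv]⟩⟩
    | succ k ih =>
      obtain ⟨⟨m0, n0, a0, b0⟩, ⟨m1, n1, a1, b1⟩⟩ := ih
      refine ⟨⟨m1, n1, a1, b1⟩, ⟨-n1 * B - m0, m1 + n1 * A - n0, ?_, ?_⟩⟩
      · have e : β ^ (k + 1 + 1) + β⁻¹ ^ (k + 1 + 1)
            = t * (β ^ (k + 1) + β⁻¹ ^ (k + 1)) - (β ^ k + β⁻¹ ^ k) := by
          rw [ht]; simp only [inv_pow]; field_simp; ring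
        rw [e, a0, a1]; push_cast; rw [← hA, ← hB]; ring
      · rw [show k + 1 + 1 = k + 2 by ring, hre, mul_sub, b0, mul_left_comm, b1]
        push_cast; rw [← hA, ← hB]; ring
  have fin : ∀ k : ℕ, ∃ n : ℤ, β ^ k + β⁻¹ ^ k + 2 * (α ^ k).re = n := by
    intro k
    obtain ⟨⟨m, n, a, b⟩, -⟩ := key k
    refine ⟨2 * m + n * A, ?_⟩
    rw [a, b]; push_cast; rw [← hA]; ring
  rcases Int.eq_nat_or_neg l with ⟨k, rfl | rfl⟩
  · simpa using fin k
  · obtain ⟨n, hn⟩ := fin k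
    refine ⟨n, ?_⟩
    have : (α ^ (-(k:ℤ))).re = (α ^ k).re := by
      rw [zpow_neg, zpow_natCast, ← inv_pow, hinv, ← map_pow, Complex.conj_re]
    rw [this, ← hn]; simp [add_comm]

lemma salem_structure {β : ℝ} (h : IsQuarticSalem β) :
    IsIntegral ℤ β⁻¹ ∧ ∃ (α : ℂ) (A B : ℤ), ‖α‖ = 1 ∧
      β + β⁻¹ + 2 * α.re = A ∧ (β + β⁻¹) * (2 * α.re) = B := by
  obtain ⟨hβ, hi, hdeg, hinv, hroots⟩ := h
  have hβ0 : β ≠ 0 := by linarith
  have hiQ : IsIntegral ℚ β := hi.tower_top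
  have hmap : minpoly ℚ β = (minpoly ℤ β).map (algebraMap ℤ ℚ) :=
    minpoly.isIntegrallyClosed_eq_field_fractions' ℚ hi
  set P := minpoly ℤ β with hP
  have hPm : P.Monic := minpoly.monic hi
  have hPdeg : P.natDegree = 4 := by
    rw [hmap, hPm.natDegree_map] at hdeg; exact hdeg
  have hinvZ : aeval β⁻¹ P = 0 := by rw [hmap, aeval_map_algebraMap] at hinv; exact hinv
  refine ⟨⟨P, hPm, by simpa [aeval_def] using hinvZ⟩, ?_⟩
  set Q := (minpoly ℚ β).map (algebraMap ℚ ℂ) with hQ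
  have hQm : Q.Monic := (minpoly.monic hiQ).map _
  have hQdeg : Q.natDegree = 4 := by rw [hQ, (minpoly.monic hiQ).natDegree_map, hdeg]
  have hsep : Q.Separable := (minpoly.irreducible hiQ).separable.map
  have hnd : Q.roots.Nodup := nodup_roots hsep
  have hspl : Q.Splits := IsAlgClosed.splits Q
  have hcard : Q.roots.card = 4 := by rw [← hQdeg]; exact hspl.natDegree_eq_card_roots.symm
  have hprod : Q = (Q.roots.map (fun a => X - C a)).prod := hspl.eq_prod_roots_of_monic hQm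
  have hmem : ∀ z : ℂ, z ∈ Q.roots ↔ aeval z (minpoly ℚ β) = 0 := by
    intro z
    rw [mem_roots hQm.ne_zero, IsRoot, hQ, eval_map_algebraMap]
  have hreal : ∀ x : ℝ, aeval x (minpoly ℚ β) = 0 → (x:ℂ) ∈ Q.roots := by
    intro x hx
    rw [hmem]
    have := aeval_algebraMap_apply ℂ x (minpoly ℚ β)
    rw [hx] at this; simpa using this
  have h1 : (β:ℂ) ∈ Q.roots := hreal β (minpoly.aeval ℚ β)
  have h2 : ((β⁻¹ : ℝ):ℂ) ∈ Q.roots := hreal _ hinv
  have hne : ((β⁻¹ : ℝ):ℂ) ≠ (β:ℂ) := by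
    intro h
    have : β⁻¹ = β := by exact_mod_cast h
    have := inv_lt_one_of_one_lt₀ hβ
    linarith
  obtain ⟨s1, hs1⟩ := Multiset.exists_cons_of_mem h1
  have h2' : ((β⁻¹ : ℝ):ℂ) ∈ s1 := by
    rw [hs1, Multiset.mem_cons] at h2; exact h2.resolve_left hne
  obtain ⟨s2, hs2⟩ := Multiset.exists_cons_of_mem h2'
  have hc2 : s2.card = 2 := by
    rw [hs1, hs2] at hcard; simpa using hcard
  obtain ⟨a, b, hab⟩ := Multiset.card_eq_two.mp hc2
  have hR : Q.roots = (β:ℂ) ::ₘ ((β⁻¹ : ℝ):ℂ) ::ₘ a ::ₘ {b} := by rw [hs1, hs2, hab]; rfl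
  rw [hR] at hnd
  simp only [Multiset.nodup_cons, Multiset.mem_cons, Multiset.mem_singleton, not_or] at hnd
  obtain ⟨⟨-, n1, n2⟩, ⟨n3, n4⟩, -⟩ := hnd
  have ha : ‖a‖ = 1 := by
    have := hroots a ((hmem a).mp (by rw [hR]; simp))
    rcases this with h | h | h
    · exact absurd h.symm n1
    · exact absurd h.symm n3
    · exact h
  have hb : ‖b‖ = 1 := by
    have := hroots b ((hmem b).mp (by rw [hR]; simp))
    rcases this with h | h | h
    · exact absurd h.symm n2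
    · exact absurd h.symm n4
    · exact h
  have hev : ∀ z : ℂ, z ^ 4 + P.coeff 3 * z ^ 3 + P.coeff 2 * z ^ 2 + P.coeff 1 * z + P.coeff 0
      = (z - β) * (z - (β:ℂ)⁻¹) * (z - a) * (z - b) := by
    intro z
    have e1 : eval z Q = (z - β) * (z - (β:ℂ)⁻¹) * (z - a) * (z - b) := by
      rw [hprod, hR]; simp; ring
    have e2 : eval z Q = aeval z P := by
      rw [hQ, eval_map_algebraMap, hmap, aeval_map_algebraMap]
    have hl : P.coeff 4 = 1 := by rw [← hPdeg]; exact hPm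
    rw [← e1, e2, aeval_eq_sum_range, hPdeg]
    simp [Finset.sum_range_succ, hl]
    ring
  have hβC : (β:ℂ) ≠ 0 := by exact_mod_cast hβ0
  have hbb : (β:ℂ) * (β:ℂ)⁻¹ = 1 := mul_inv_cancel₀ hβC
  have e0 := hev 0
  have e1 := hev 1
  have e2 := hev (-1)
  have e3 := hev 2
  have c0 : a * b = P.coeff 0 := by linear_combination -e0 - a * b * hbb
  have c2 : 1 + (β + (β:ℂ)⁻¹) * (a + b) + a * b = P.coeff 2 := by
    linear_combination -(e1 + e2) / 2 + e0 - hbb
  have c3 : β + (β:ℂ)⁻¹ + (a + b) = -P.coeff 3 := by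
    linear_combination (e3 - 3 * e1 + 3 * e0 - e2) / 6
  have hc0 : |P.coeff 0| = 1 := by
    have := congrArg norm c0
    rw [norm_mul, ha, hb, Complex.norm_intCast] at this
    have : ((|P.coeff 0| : ℤ) : ℝ) = 1 := by push_cast; linarith
    exact_mod_cast this
  have ha0 : a ≠ 0 := by intro h0; simp [h0] at ha
  have hainv : a * (starRingEnd ℂ) a = 1 := by
    rw [Complex.mul_conj, Complex.normSq_eq_norm_sq, ha]; simp
  rcases abs_eq (by norm_num : (0:ℤ) ≤ 1) |>.mp hc0 with h0 | h0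
  · rw [h0] at c0
    have hba : b = (starRingEnd ℂ) a := by
      apply mul_left_cancel₀ ha0; rw [c0, hainv]; simp
    have hsum : a + b = ((2 * a.re : ℝ) : ℂ) := by rw [hba, Complex.add_conj]
    refine ⟨a, -P.coeff 3, P.coeff 2 - 2, ha, ?_, ?_⟩
    · rw [hsum] at c3
      exact_mod_cast c3
    · rw [hsum, c0] at c2
      have : ((β:ℂ) + (β:ℂ)⁻¹) * ((2 * a.re : ℝ) : ℂ) = ((P.coeff 2 - 2 : ℤ) : ℂ) := by
        push_cast at c2 ⊢; linear_combination c2
      exact_mod_cast this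
  · exfalso
    rw [h0] at c0
    have hba : b = -(starRingEnd ℂ) a := by
      apply mul_left_cancel₀ ha0; rw [c0, mul_neg, hainv]; simp
    have hre := congrArg Complex.re c3
    rw [hba] at hre
    have hre' : β + β⁻¹ = -(P.coeff 3 : ℝ) := by
      have e : ((β:ℂ)⁻¹).re = β⁻¹ := by rw [← Complex.ofReal_inv, Complex.ofReal_re]
      simp only [Complex.add_re, Complex.ofReal_re, e, Complex.neg_re, Complex.conj_re,
        Complex.intCast_re] at hre
      linarith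
    have hq : aeval β (X ^ 2 + C ((P.coeff 3 : ℤ) : ℚ) * X + 1 : ℚ[X]) = 0 := by
      simp only [map_add, map_pow, aeval_X, map_mul, aeval_C, map_one, eq_ratCast,
        Rat.cast_intCast]
      have : (P.coeff 3 : ℝ) = -(β + β⁻¹) := by linarith
      rw [this]; field_simp; ring
    have hne0 : (X ^ 2 + C ((P.coeff 3 : ℤ) : ℚ) * X + 1 : ℚ[X]) ≠ 0 := by
      intro h
      have := congrArg (fun p => coeff p 0) h
      simp at this
    have hd := natDegree_le_of_dvd (minpoly.dvd ℚ β hq) hne0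
    have hd2 : (X ^ 2 + C ((P.coeff 3 : ℤ) : ℚ) * X + 1 : ℚ[X]).natDegree ≤ 2 := by
      compute_degree
    omega

end Crest.Agent.Salem
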