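import Crest.Agent.Salem.Trig
import Crest.Prelude.Def_BernoulliConv

set_option autoImplicit false

open Real Finset MeasureTheory Crest.AnalysisR Filter Topology

namespace Crest.Agent.Salem

lemma sing_of_approx {μ ν : Measure ℝ}
    (h : ∀ ε : ℝ, 0 < ε → ∃ A : Set ℝ, μ Aᶜ ≤ ENNReal.ofReal ε ∧ ν A ≤ ENNReal.ofReal ε) :
    μ.MutuallySingular ν := by
  apply Measure.mutuallySingular_of_disjoint
  intro ξ hμ hν
  have : ξ Set.univ = 0 := by
    apply le_antisymm _ zero_le
    apply ENNReal.le_of_forall_pos_le_add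
    intro ε hε _
    obtain ⟨A, h1, h2⟩ := h (ε / 2) (by positivity)
    calc ξ Set.univ ≤ ξ A + ξ Aᶜ := by
          rw [← Set.union_compl_self A]; exact measure_union_le _ _
      _ ≤ ENNReal.ofReal (ε / 2) + ENNReal.ofReal (ε / 2) :=
          add_le_add ((Measure.le_iff'.mp hν A).trans h2) ((Measure.le_iff'.mp hμ _).trans h1)
      _ = 0 + ε := by
          rw [← ENNReal.ofReal_add (by positivity) (by positivity)]; simp
  have h0 : ξ = 0 := by simpa using this
  rw [h0]; exact le_rfl

instance : IsProbabilityMeasure fairCoin :=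
  ⟨by simp [fairCoin, ENNReal.inv_two_add_inv_two]⟩

/-- The product of fair coins. -/
noncomputable abbrev PP : Measure (ℕ → Bool) := Measure.infinitePi (fun _ : ℕ => fairCoin)

/-- One term of the random series. -/
noncomputable def term (c : ℝ) (k : ℕ) (b : Bool) : ℝ := if b then c ^ k else -(c ^ k)

variable {c : ℝ}

lemma abs_term (hc : 0 ≤ c) (k : ℕ) (b : Bool) : |term c k b| = c ^ k := by
  cases b <;> simp [term, abs_of_nonneg (pow_nonneg hc k)]

lemma summable_term (hc : 0 ≤ c) (hc1 : c < 1) (ε : ℕ → Bool) :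
    Summable (fun k => term c k (ε k)) :=
  Summable.of_norm_bounded (summable_geometric_of_lt_one hc hc1)
    (fun k => by rw [Real.norm_eq_abs, abs_term hc])

lemma sps_eq (ε : ℕ → Bool) : signedPowerSum c ε = ∑' k, term c k (ε k) := rfl

lemma tendsto_partial (hc : 0 ≤ c) (hc1 : c < 1) (ε : ℕ → Bool) :
    Tendsto (fun K => ∑ k ∈ range K, term c k (ε k)) atTop (𝓝 (signedPowerSum c ε)) :=
  (summable_term hc hc1 ε).hasSum.tendsto_sum_nat

lemma measurable_partial (K : ℕ) :
    Measurable (fun ε : ℕ → Bool => ∑ k ∈ range K, term c k (ε k)) :=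
  Finset.measurable_sum _ fun k _ =>
    (measurable_from_top (f := term c k)).comp (measurable_pi_apply k)

lemma measurable_sps (hc : 0 ≤ c) (hc1 : c < 1) : Measurable (signedPowerSum c) :=
  measurable_of_tendsto_metrizable measurable_partial
    (tendsto_pi_nhds.mpr (tendsto_partial hc hc1))

lemma abs_sps_le (hc : 0 ≤ c) (hc1 : c < 1) (ε : ℕ → Bool) : |signedPowerSum c ε| ≤ (1 - c)⁻¹ := by
  have := tsum_of_norm_bounded (f := fun k => term c k (ε k))
    (hasSum_geometric_of_lt_one hc hc1) (fun k => by rw [Real.norm_eq_abs, abs_term hc])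
  simpa [sps_eq] using this

lemma isProb (hc : 0 ≤ c) (hc1 : c < 1) : IsProbabilityMeasure (bernoulliConvolution c) :=
  Measure.isProbabilityMeasure_map (measurable_sps hc hc1).aemeasurable

lemma support_null (hc : 0 ≤ c) (hc1 : c < 1) :
    bernoulliConvolution c (Set.Icc (-(1 - c)⁻¹) (1 - c)⁻¹)ᶜ = 0 := by
  rw [bernoulliConvolution, Measure.map_apply (measurable_sps hc hc1) measurableSet_Icc.compl]
  convert measure_empty (μ := PP)
  ext ε
  have := abs_le.mp (abs_sps_le hc hc1 ε)
  simp [this.1, this.2]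

lemma integral_cos_partial (η : ℝ) (K : ℕ) :
    ∫ ε, cos (η * ∑ k ∈ range K, term c k (ε k)) ∂PP = ∏ k ∈ range K, cos (η * c ^ k) := by
  have h1 : ∫ ε, Complex.exp (((η * ∑ k ∈ range K, term c k (ε k) : ℝ) : ℂ) * Complex.I) ∂PP
      = ((∏ k ∈ range K, cos (η * c ^ k) : ℝ) : ℂ) := by
    have e : ∀ ε : ℕ → Bool,
        Complex.exp (((η * ∑ k ∈ range K, term c k (ε k) : ℝ) : ℂ) * Complex.I)
        = (fun y : (range K) → Bool => ∏ k : range K,
            Complex.exp (((η * term c k (y k) : ℝ) : ℂ) * Complex.I)) ((range K).restrict ε) := by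
      intro ε
      simp only [Finset.restrict]
      rw [← Complex.exp_sum, ← Finset.sum_mul,
        Finset.sum_coe_sort (range K) (fun k => ((η * term c k (ε k) : ℝ) : ℂ))]
      push_cast
      rw [Finset.mul_sum]
    simp_rw [e]
    rw [integral_restrict_infinitePi (μ := fun _ : ℕ => fairCoin) (s := range K)
      (f := fun y : (range K) → Bool => ∏ k : range K,
            Complex.exp (((η * term c k (y k) : ℝ) : ℂ) * Complex.I))
      (Measurable.of_discrete.aestronglyMeasurable),
      integral_fintype_prod_eq_prod (fun (k : range K) (b : Bool) =>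
        Complex.exp (((η * term c k b : ℝ) : ℂ) * Complex.I))]
    rw [Complex.ofReal_prod, ← Finset.prod_coe_sort (range K)]
    refine Finset.prod_congr rfl fun k _ => ?_
    rw [fairCoin, integral_add_measure (Integrable.of_finite.smul_measure (by simp))
      (Integrable.of_finite.smul_measure (by simp)),
      integral_smul_measure, integral_smul_measure, integral_dirac, integral_dirac]
    simp only [term, if_true, Bool.false_eq_true, if_false]
    rw [Complex.ofReal_cos, Complex.cos]
    simp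
    ring_nf
  have h2 := congrArg Complex.re h1
  rw [Complex.ofReal_re] at h2
  rw [← h2]
  have hint : Integrable (fun ε : ℕ → Bool =>
      Complex.exp (((η * ∑ k ∈ range K, term c k (ε k) : ℝ) : ℂ) * Complex.I)) PP := by
    refine Integrable.of_bound (C := 1) ?_ (ae_of_all _ fun ε => ?_)
    · have := measurable_partial (c := c) K
      exact (by fun_prop : Measurable _).aestronglyMeasurable
    · rw [Complex.norm_exp_ofReal_mul_I]
  have := integral_re hint
  simp only [RCLike.re_to_complex, Complex.exp_ofReal_mul_I_re] at this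
  exact this

/-- Cosine transform of the Bernoulli convolution. -/
noncomputable def FF (c η : ℝ) : ℝ := ∫ x, cos (η * x) ∂(bernoulliConvolution c)

lemma tendsto_FF (hc : 0 ≤ c) (hc1 : c < 1) (η : ℝ) :
    Tendsto (fun K => ∏ k ∈ range K, cos (η * c ^ k)) atTop (𝓝 (FF c η)) := by
  simp_rw [← integral_cos_partial]
  rw [FF, bernoulliConvolution, integral_map (measurable_sps hc hc1).aemeasurable
    (by fun_prop : Measurable _).aestronglyMeasurable]
  refine tendsto_integral_of_dominated_convergence (fun _ => 1) (fun K => ?_)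
    (integrable_const _) (fun K => ae_of_all _ fun ε => abs_cos_le_one _) (ae_of_all _ fun ε => ?_)
  · have := measurable_partial (c := c) K
    exact (by fun_prop : Measurable _).aestronglyMeasurable
  · exact (continuous_cos.tendsto _).comp ((tendsto_partial hc hc1 ε).const_mul η)

lemma FF_self (hc : 0 ≤ c) (hc1 : c < 1) (η : ℝ) : FF c η = cos η * FF c (η * c) := by
  have h1 := (tendsto_add_atTop_iff_nat 1).mpr (tendsto_FF hc hc1 η)
  have h2 := (tendsto_FF hc hc1 (η * c)).const_mul (cos η)
  refine tendsto_nhds_unique h1 (h2.congr fun K => ?_)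
  rw [prod_range_succ', mul_comm]
  simp only [pow_zero, mul_one]
  congr 1
  refine prod_congr rfl fun k _ => ?_
  congr 1; ring

lemma abs_FF_le (hc : 0 ≤ c) (hc1 : c < 1) (η : ℝ) : |FF c η| ≤ 1 := by
  refine le_of_tendsto' (tendsto_FF hc hc1 η).abs fun K => ?_
  rw [Finset.abs_prod]
  exact prod_le_one (fun _ _ => abs_nonneg _) (fun _ _ => abs_cos_le_one _)

lemma FF_add (hc : 0 ≤ c) (hc1 : c < 1) (a b τ B : ℝ) (hτ : τ = 1 ∨ τ = -1)
    (hB : ∀ K, ∑ k ∈ range K, |sin (a * c ^ k)| * |sin (b * c ^ k)| ≤ B) :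
    |FF c (a + τ * b) - FF c a * FF c b| ≤ B := by
  have h1 := (tendsto_FF hc hc1 (a + τ * b)).sub ((tendsto_FF hc hc1 a).mul (tendsto_FF hc hc1 b))
  refine le_of_tendsto' h1.abs fun K => le_trans ?_ (hB K)
  rw [← prod_mul_distrib]
  refine (abs_prod_sub_prod_le _ _ _ (fun _ _ => abs_cos_le_one _) (fun k _ => ?_)).trans
    (sum_le_sum fun k _ => le_of_eq ?_)
  · rw [abs_mul]
    exact mul_le_one₀ (abs_cos_le_one _) (abs_nonneg _) (abs_cos_le_one _)
  · rcases hτ with rfl | rfl
    · rw [one_mul, add_mul, cos_add, ← abs_mul, ← abs_neg]; congr 1; ring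
    · rw [show (a + -1 * b) * c ^ k = a * c ^ k - b * c ^ k by ring, cos_sub, ← abs_mul]
      congr 1; ring

lemma integrable_bdd {μ : Measure ℝ} [IsFiniteMeasure μ] {f : ℝ → ℝ} (hf : Continuous f) (C : ℝ)
    (hC : ∀ x, |f x| ≤ C) : Integrable f μ :=
  Integrable.of_bound hf.aestronglyMeasurable C (ae_of_all _ hC)

lemma cov_eq (hc : 0 ≤ c) (hc1 : c < 1) (a b : ℝ) :
    ∫ x, (cos (a * x) - FF c a) * (cos (b * x) - FF c b) ∂(bernoulliConvolution c)
      = ((FF c (a + 1 * b) - FF c a * FF c b) + (FF c (a + -1 * b) - FF c a * FF c b)) / 2 := by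
  have := isProb hc hc1
  have hi : ∀ t : ℝ, Integrable (fun x => cos (t * x)) (bernoulliConvolution c) := fun t =>
    integrable_bdd (by fun_prop) 1 (fun _ => abs_cos_le_one _)
  have e : ∀ x, (cos (a * x) - FF c a) * (cos (b * x) - FF c b)
      = (1 / 2 * cos ((a + 1 * b) * x) + 1 / 2 * cos ((a + -1 * b) * x))
        + (-FF c b * cos (a * x) + -FF c a * cos (b * x)) + FF c a * FF c b := by
    intro x
    rw [show (a + 1 * b) * x = a * x + b * x by ring, show (a + -1 * b) * x = a * x - b * x by ring,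
      cos_add, cos_sub]
    ring
  simp_rw [e]
  rw [integral_add, integral_add, integral_add, integral_add, integral_const_mul,
    integral_const_mul, integral_const_mul, integral_const_mul, integral_const]
  · simp only [probReal_univ, smul_eq_mul, one_mul]
    simp only [FF]
    ring
  · exact (hi _).const_mul _
  · exact (hi _).const_mul _
  · exact (hi _).const_mul _
  · exact (hi _).const_mul _
  · exact ((hi _).const_mul _).add ((hi _).const_mul _)
  · exact ((hi _).const_mul _).add ((hi _).const_mul _)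
  · exact (((hi _).const_mul _).add ((hi _).const_mul _)).add
      (((hi _).const_mul _).add ((hi _).const_mul _))
  · exact integrable_const _

/-- Second moment of a sum with short-range correlations. -/
lemma second_moment {μ : Measure ℝ} [IsFiniteMeasure μ] (N w : ℕ) (X : ℕ → ℝ → ℝ)
    (hX : ∀ n, Continuous (X n)) (hb : ∀ n x, |X n x| ≤ 2) {A B : ℝ} (hA0 : 0 ≤ A) (hB0 : 0 ≤ B)
    (hA : ∀ n n', ∫ x, X n x * X n' x ∂μ ≤ A)
    (hB : ∀ n n', n < N → n' + w < n → ∫ x, X n x * X n' x ∂μ ≤ B) :
    ∫ x, (∑ n ∈ range N, X n x) ^ 2 ∂μ ≤ N * (2 * w + 1) * A + N ^ 2 * B := by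
  have hi : ∀ n n', Integrable (fun x => X n x * X n' x) μ := fun n n' =>
    integrable_bdd ((hX n).mul (hX n')) 4 (fun x => by
      rw [abs_mul]; nlinarith [hb n x, hb n' x, abs_nonneg (X n x), abs_nonneg (X n' x)])
  simp_rw [sq, sum_mul_sum]
  rw [integral_finsetSum _ (fun n _ => integrable_finsetSum _ fun n' _ => hi n n')]
  simp_rw [integral_finsetSum _ (fun n' _ => hi _ n')]
  have key : ∀ n ∈ range N, ∑ n' ∈ range N, ∫ x, X n x * X n' x ∂μ ≤ (2 * w + 1) * A + N * B := by
    intro n hn
    have h1 : ∀ n' ∈ range N, ∫ x, X n x * X n' x ∂μ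
        ≤ (if n' ∈ Finset.Icc (n - w) (n + w) then A else 0) + B := by
      intro n' hn'
      split_ifs with h
      · linarith [hA n n']
      · rw [zero_add]
        rw [Finset.mem_Icc] at h
        by_cases h2 : n' + w < n
        · exact hB n n' (mem_range.mp hn) h2
        · simp_rw [mul_comm (X n _)]
          exact hB n' n (mem_range.mp hn') (by omega)
    refine (sum_le_sum h1).trans ?_
    rw [sum_add_distrib, sum_const, card_range, nsmul_eq_mul, ← sum_filter, sum_const, nsmul_eq_mul]
    have h3 : ((range N).filter (fun n' => n' ∈ Finset.Icc (n - w) (n + w))).card ≤ 2 * w + 1 := by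
      refine (card_le_card (t := Finset.Icc (n - w) (n + w)) (fun x hx => (mem_filter.mp hx).2)).trans ?_
      rw [Nat.card_Icc]; omega
    have h4 : (((range N).filter (fun n' => n' ∈ Finset.Icc (n - w) (n + w))).card : ℝ)
        ≤ 2 * w + 1 := by exact_mod_cast h3
    gcongr
  refine (sum_le_sum key).trans (le_of_eq ?_)
  rw [sum_const, card_range, nsmul_eq_mul]; ring

lemma markov_sq {μ : Measure ℝ} [IsFiniteMeasure μ] {f : ℝ → ℝ} (hf : Continuous f) (C : ℝ)
    (hC : ∀ x, |f x| ≤ C) {t V ε : ℝ} (ht : 0 < t) (hV : ∫ x, f x ^ 2 ∂μ ≤ V) (hε : V ≤ t ^ 2 * ε) :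
    μ {x | t ≤ |f x|} ≤ ENNReal.ofReal ε := by
  have h1 := mul_meas_ge_le_integral_of_nonneg (μ := μ) (f := fun x => f x ^ 2)
    (ae_of_all _ fun x => sq_nonneg _)
    (integrable_bdd (hf.pow 2) (C ^ 2) (fun x => by
      rw [abs_pow]; gcongr; exact hC x)) (t ^ 2)
  have e : {x | t ≤ |f x|} = {x | t ^ 2 ≤ f x ^ 2} := by
    ext x; simp only [Set.mem_ofPred_eq]; rw [sq_le_sq, abs_of_pos ht]
  rw [e, ← ENNReal.ofReal_toReal (measure_ne_top μ _)]
  apply ENNReal.ofReal_le_ofReal
  have h2 : t ^ 2 * μ.real {x | t ^ 2 ≤ f x ^ 2} ≤ t ^ 2 * ε := by linarith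
  exact le_of_mul_le_mul_left h2 (by positivity)

lemma integral_cos_Icc {t R : ℝ} (ht : 0 < t) (hR : 0 ≤ R) :
    ∫ x in Set.Icc (-R) R, cos (t * x) ≤ 2 / t := by
  rw [integral_Icc_eq_integral_Ioc, ← intervalIntegral.integral_of_le (by linarith)]
  have h := intervalIntegral.mul_integral_comp_mul_left (f := cos) (a := -R) (b := R) (c := t)
  rw [integral_cos] at h
  rw [le_div_iff₀ ht, mul_comm, h]
  linarith [sin_le_one (t * R), neg_one_le_sin (t * -R)]

lemma integral_cos_cos_Icc {a b R g : ℝ} (hg : 0 < g) (hb : 0 ≤ b) (hab : b + g ≤ a) (hR : 0 ≤ R) :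
    ∫ x in Set.Icc (-R) R, cos (a * x) * cos (b * x) ≤ 2 / g := by
  have hi : ∀ t : ℝ, Integrable (fun x => cos (t * x)) (volume.restrict (Set.Icc (-R) R)) :=
    fun t => integrable_bdd (by fun_prop) 1 (fun _ => abs_cos_le_one _)
  have e : ∀ x, cos (a * x) * cos (b * x)
      = 1 / 2 * cos ((a + b) * x) + 1 / 2 * cos ((a - b) * x) := by
    intro x
    rw [add_mul, sub_mul, cos_add, cos_sub]; ring
  simp_rw [e]
  rw [integral_add ((hi _).const_mul _) ((hi _).const_mul _), integral_const_mul,
    integral_const_mul]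
  have h1 := integral_cos_Icc (t := a + b) (by linarith) hR
  have h2 := integral_cos_Icc (t := a - b) (by linarith) hR
  have h3 : 2 / (a + b) ≤ 2 / g := by gcongr; linarith
  have h4 : 2 / (a - b) ≤ 2 / g := by gcongr; linarith
  linarith

end Crest.Agent.Salem
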