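import Crest.Agent.Salem.Iter
import Crest.Agent.Salem.Fourier

set_option autoImplicit false

open Real Finset MeasureTheory Crest.AnalysisR Filter Topology

namespace Crest.Agent.Salem

variable {β : ℝ} {α : ℂ} {u μ U : ℝ} {Z : ℂ} {D : ℕ} {σ δ E : ℝ}

/-- The test frequencies. -/
noncomputable def freq (β U : ℝ) (l : ℤ) : ℝ := 2 * π * (U * β ^ l)

lemma freq_mul (hβ : 1 < β) (U : ℝ) (l : ℤ) (k : ℕ) :
    freq β U l * β⁻¹ ^ k = 2 * π * (U * β ^ (l - k)) := by
  have hβ0 : 0 < β := by linarith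
  rw [freq, zpow_sub₀ hβ0.ne', zpow_natCast, inv_pow]; ring

lemma inv_nonneg' (hβ : 1 < β) : 0 ≤ β⁻¹ := by have : 0 < β := by linarith
                                               positivity

lemma Good.lower (hβ : 1 < β) (hα : ‖α‖ = 1) (hμ : 0 < μ) (h : Good β α u μ U Z D σ δ E)
    (n : ℤ) (L : ℕ) (hn : n ≤ L) :
    exp (-(4 / μ) * (E + 20 * (1 - β⁻¹)⁻¹ + 80 * δ ^ 2 * L)) ≤ |FF β⁻¹ (freq β U n)| := by
  classical
  refine ge_of_tendsto' (tendsto_FF (inv_nonneg' hβ) (inv_lt_one_of_one_lt₀ hβ) _).abs fun K => ?_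
  simp_rw [freq_mul hβ]
  rw [Finset.abs_prod]
  have h1 := h.energy_ext hβ hα ((range K).image (fun k : ℕ => n - k)) L (by
    intro l hl
    obtain ⟨k, -, rfl⟩ := mem_image.mp hl
    omega)
  rw [sum_image (by intro x _ y _ hxy; simpa using hxy)] at h1
  calc exp (-(4 / μ) * (E + 20 * (1 - β⁻¹)⁻¹ + 80 * δ ^ 2 * L))
      ≤ exp (-(4 / μ) * ∑ k ∈ range K, sin (π * (U * β ^ (n - k))) ^ 2) := by
        apply exp_le_exp.mpr
        have : 0 < 4 / μ := by positivity
        nlinarith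
    _ = ∏ k ∈ range K, exp (-(4 / μ) * sin (π * (U * β ^ (n - k))) ^ 2) := by
        rw [mul_sum, exp_sum]
    _ ≤ _ := prod_le_prod (fun _ _ => (exp_pos _).le) (fun k _ => exp_le_abs_cos hμ (h.margin _))

lemma Good.near_far (hβ : 1 < β) (hα : ‖α‖ = 1) (h : Good β α u μ U Z D σ δ E) {s : ℕ}
    (hs : β ^ (-(s:ℤ)) ≤ δ) {l : ℤ} (hl : (s:ℤ) ≤ l) : Near (U * β ^ l) 0 (3 * δ) := by
  refine (h.rel.near_right hβ hα h.hZ l).mono ?_
  have : β ^ (-l) ≤ β ^ (-(s:ℤ)) := zpow_le_zpow_right₀ hβ.le (by omega)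
  linarith

lemma Good.sign (hβ : 1 < β) (hα : ‖α‖ = 1) (h : Good β α u μ U Z D σ δ E) {s : ℕ}
    (hs : β ^ (-(s:ℤ)) ≤ δ) (hδ : δ ≤ 1 / 100) :
    ∃ τ : ℝ, |τ| = 1 ∧ ∀ i : ℕ, τ * FF β⁻¹ (freq β U (s + i)) = |FF β⁻¹ (freq β U (s + i))| := by
  have hδ0 := h.hδ
  obtain ⟨τ, hτ, h0⟩ : ∃ τ : ℝ, |τ| = 1 ∧ τ * FF β⁻¹ (freq β U s) = |FF β⁻¹ (freq β U s)| := by
    rcases le_total 0 (FF β⁻¹ (freq β U s)) with h | h
    · exact ⟨1, by simp, by simp [abs_of_nonneg h]⟩
    · exact ⟨-1, by simp, by simp [abs_of_nonpos h]⟩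
  refine ⟨τ, hτ, fun i => ?_⟩
  induction i with
  | zero => simpa using h0
  | succ i ih =>
    have e := FF_self (inv_nonneg' hβ) (inv_lt_one_of_one_lt₀ hβ) (freq β U (s + (i + 1 : ℕ)))
    have e2 := freq_mul hβ U (s + (i + 1 : ℕ)) 1
    rw [pow_one, show ((s:ℤ) + (i + 1 : ℕ)) - (1 : ℕ) = s + i by push_cast; ring] at e2
    rw [e2] at e
    have hc : 0 ≤ cos (freq β U (s + (i + 1 : ℕ))) := by
      have := (h.near_far hβ hα hs (l := s + (i + 1 : ℕ)) (by omega)).cos_ge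
      rw [freq]; nlinarith
    rw [e, abs_mul, abs_of_nonneg hc, ← freq, ← ih]; ring

lemma Good.cov (hβ : 1 < β) (hα : ‖α‖ = 1) (h : Good β α u μ U Z D σ δ E) {s : ℕ}
    (hs : β ^ (-(s:ℤ)) ≤ δ) (n n' : ℕ) (hn : n' + (D + 2 * s) < n) (K : ℕ) :
    ∑ k ∈ range K, |sin (freq β U n * β⁻¹ ^ k)| * |sin (freq β U n' * β⁻¹ ^ k)|
      ≤ 2 * π * δ * (1 - β⁻¹)⁻¹ + 6 * π * δ * (n' + D + s) := by
  classical
  have hδ0 := h.hδ
  have hβ0 : 0 < β := by linarith
  simp_rw [freq_mul hβ]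
  rw [← sum_filter_add_sum_filter_not (range K) (fun k => n' + D + s ≤ k)]
  set F1 := (range K).filter (fun k => n' + D + s ≤ k)
  set F2 := (range K).filter (fun k => ¬ n' + D + s ≤ k)
  have a1 : ∑ k ∈ F1, |sin (2 * π * (U * β ^ ((n:ℤ) - k)))| * |sin (2 * π * (U * β ^ ((n':ℤ) - k)))|
      ≤ ∑ k ∈ F1, 2 * π * β ^ ((D:ℤ) + (n' - k)) := by
    refine sum_le_sum fun k _ => ?_
    have h1 := (h.rel.near_left hβ ((n':ℤ) - k)).abs_sin_two_le
    calc _ ≤ 1 * (2 * π * β ^ ((D:ℤ) + (n' - k))) := by gcongr; exact abs_sin_le_one _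
      _ = _ := one_mul _
  have a2 : ∑ k ∈ F2, |sin (2 * π * (U * β ^ ((n:ℤ) - k)))| * |sin (2 * π * (U * β ^ ((n':ℤ) - k)))|
      ≤ ∑ k ∈ F2, 6 * π * δ := by
    refine sum_le_sum fun k hk => ?_
    have hk' := (mem_filter.mp hk).2
    have h1 := (h.near_far hβ hα hs (l := (n:ℤ) - k) (by omega)).abs_sin_two_le
    calc _ ≤ (2 * π * (3 * δ)) * 1 := by gcongr; exact abs_sin_le_one _
      _ = _ := by ring
  rw [← mul_sum] at a1
  rw [sum_const, nsmul_eq_mul] at a2
  have c1 := sum_zpow_le hβ (F1.image (fun k : ℕ => (D:ℤ) + (n' - k))) (-(s:ℤ)) (by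
    intro l hl
    obtain ⟨k, hk, rfl⟩ := mem_image.mp hl
    have := (mem_filter.mp hk).2; omega)
  rw [sum_image (by intro x _ y _ hxy; simpa using hxy)] at c1
  have hR : 0 < (1 - β⁻¹)⁻¹ := by
    have : 0 < 1 - β⁻¹ := by have := inv_lt_one_of_one_lt₀ hβ; linarith
    positivity
  have c2 : β ^ (-(s:ℤ)) * (1 - β⁻¹)⁻¹ ≤ δ * (1 - β⁻¹)⁻¹ := by gcongr
  have c3 : F2.card ≤ n' + D + s := by
    have : F2 ⊆ range (n' + D + s) := fun k hk => by
      have := (mem_filter.mp hk).2; simp; omega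
    simpa using card_le_card this
  have c4 : (F2.card : ℝ) ≤ n' + D + s := by exact_mod_cast c3
  have c5 : (F2.card : ℝ) * (6 * π * δ) ≤ (n' + D + s) * (6 * π * δ) := by gcongr
  have c6 : 2 * π * ∑ k ∈ F1, β ^ ((D:ℤ) + (n' - k)) ≤ 2 * π * (δ * (1 - β⁻¹)⁻¹) := by
    gcongr; linarith
  linarith

/-- The separating set built from a good state. -/
lemma Good.test (hβ : 1 < β) (hα : ‖α‖ = 1) (hu : 0 < u) (hμ : 0 < μ)
    (h : Good β α u μ U Z D σ δ E) {s N : ℕ} (hN : 0 < N)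
    (hs : β ^ (-(s:ℤ)) ≤ δ) (hδ : δ ≤ 1 / 100) {c ε : ℝ} (hc0 : 0 < c)
    (hc : c ≤ exp (-(4 / μ) * (E + 20 * (1 - β⁻¹)⁻¹ + 80 * δ ^ 2 * (s + N : ℕ))))
    (h1 : 4 * (2 * (D + 2 * s : ℕ) + 1) / N
      + (2 * π * δ * (1 - β⁻¹)⁻¹ + 6 * π * δ * (N + D + 2 * s)) ≤ c ^ 2 / 4 * ε)
    (h2 : 2 * (1 - β⁻¹)⁻¹ / N + 2 * δ / (u * (β - 1)) ≤ c ^ 2 / 4 * ε) :
    ∃ A : Set ℝ, bernoulliConvolution β⁻¹ Aᶜ ≤ ENNReal.ofReal ε ∧ volume A ≤ ENNReal.ofReal ε := by
  have hδ0 := h.hδ
  have hβ0 : 0 < β := by linarith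
  have hc1 := inv_nonneg' hβ
  have hc2 := inv_lt_one_of_one_lt₀ hβ
  have hN' : (0:ℝ) < N := by exact_mod_cast hN
  set R := (1 - β⁻¹)⁻¹ with hRdef
  have hR : 0 < R := by
    have : 0 < 1 - β⁻¹ := by linarith
    positivity
  have := isProb hc1 hc2
  set ν := bernoulliConvolution β⁻¹
  set S : ℝ → ℝ := fun x => ∑ i ∈ range N, cos (freq β U (s + i) * x) with hS
  set X : ℕ → ℝ → ℝ := fun i x => cos (freq β U (s + i) * x) - FF β⁻¹ (freq β U (s + i)) with hX
  have hXb : ∀ i x, |X i x| ≤ 2 := fun i x => by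
    have a1 := abs_cos_le_one (freq β U (s + i) * x)
    have a2 := abs_FF_le hc1 hc2 (freq β U (s + i))
    exact (abs_sub _ _).trans (by linarith)
  have hXc : ∀ i, Continuous (X i) := fun i => by simp only [hX]; fun_prop
  refine ⟨Set.Icc (-R) R ∩ {x | N * c / 2 ≤ |S x|}, ?_, ?_⟩
  · obtain ⟨τ, hτ, hsign⟩ := h.sign hβ hα hs hδ
    have hm : N * c ≤ |∑ i ∈ range N, FF β⁻¹ (freq β U (s + i))| := by
      calc N * c = ∑ i ∈ range N, c := by simp
        _ ≤ ∑ i ∈ range N, τ * FF β⁻¹ (freq β U (s + i)) := by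
          refine sum_le_sum fun i hi => ?_
          rw [hsign]
          exact hc.trans (h.lower hβ hα hμ _ (s + N) (by have := mem_range.mp hi; push_cast; omega))
        _ = τ * ∑ i ∈ range N, FF β⁻¹ (freq β U (s + i)) := by rw [mul_sum]
        _ ≤ |τ * ∑ i ∈ range N, FF β⁻¹ (freq β U (s + i))| := le_abs_self _
        _ = _ := by rw [abs_mul, hτ, one_mul]
    have hV := second_moment (μ := ν) N (D + 2 * s) X hXc hXb (A := 4)
      (B := 2 * π * δ * R + 6 * π * δ * (N + D + 2 * s)) (by norm_num) (by positivity)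
      (fun n n' => by
        have := norm_integral_le_of_norm_le_const (μ := ν) (f := fun x => X n x * X n' x) (C := 4)
          (ae_of_all _ fun x => by
            rw [Real.norm_eq_abs, abs_mul]
            nlinarith [hXb n x, hXb n' x, abs_nonneg (X n x), abs_nonneg (X n' x)])
        simp only [probReal_univ, mul_one, Real.norm_eq_abs] at this
        exact (le_abs_self _).trans this)
      (fun n n' hn hnn => by
        simp only [hX]
        rw [cov_eq hc1 hc2]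
        have hK := h.cov hβ hα hs (s + n) (s + n') (by omega)
        push_cast at hK
        have hle : 6 * π * δ * ((s:ℝ) + n' + D + s) ≤ 6 * π * δ * (N + D + 2 * s) := by
          have : (n':ℝ) ≤ N := by have : n' ≤ N := by omega
                                  exact_mod_cast this
          exact mul_le_mul_of_nonneg_left (by linarith) (by positivity)
        have b1 := (le_abs_self _).trans (FF_add hc1 hc2 _ _ 1 _ (Or.inl rfl) hK)
        have b2 := (le_abs_self _).trans (FF_add hc1 hc2 _ _ (-1) _ (Or.inr rfl) hK)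
        linarith)
    have hM := markov_sq (μ := ν) (f := fun x => ∑ i ∈ range N, X i x)
      (continuous_finsetSum _ fun i _ => hXc i) (N * 2) (fun x => by
        refine (abs_sum_le_sum_abs _ _).trans ?_
        calc _ ≤ ∑ i ∈ range N, (2:ℝ) := sum_le_sum fun i _ => hXb i x
          _ = N * 2 := by simp) (t := N * c / 2) (ε := ε) (by positivity) hV (by
        have e : (N * c / 2) ^ 2 * ε = (N:ℝ) ^ 2 * (c ^ 2 / 4 * ε) := by ring
        rw [e]
        refine le_trans (le_of_eq ?_) (mul_le_mul_of_nonneg_left h1 (sq_nonneg (N:ℝ)))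
        field_simp)
    rw [Set.compl_inter]
    refine (measure_union_le _ _).trans ?_
    rw [support_null hc1 hc2, zero_add]
    refine le_trans (measure_mono fun x hx => ?_) hM
    simp only [Set.mem_compl_iff, Set.mem_ofPred_eq, not_le] at hx ⊢
    simp only [hX]
    rw [sum_sub_distrib]
    have := abs_sub_abs_le_abs_sub (∑ i ∈ range N, FF β⁻¹ (freq β U (s + i))) (S x)
    rw [abs_sub_comm] at this
    simp only [hS] at this hx
    linarith
  · set lam := volume.restrict (Set.Icc (-R) R)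
    have hV := second_moment (μ := lam) N 0 (fun i x => cos (freq β U (s + i) * x))
      (fun i => by fun_prop) (fun i x => (abs_cos_le_one _).trans (by norm_num)) (A := 2 * R)
      (B := 2 * δ / (u * (β - 1))) (by positivity)
      (by have : 0 < β - 1 := by linarith
          positivity)
      (fun n n' => by
        have := norm_integral_le_of_norm_le_const (μ := lam)
          (f := fun x => cos (freq β U (s + n) * x) * cos (freq β U (s + n') * x)) (C := 1)
          (ae_of_all _ fun x => by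
            rw [Real.norm_eq_abs, abs_mul]
            exact mul_le_one₀ (abs_cos_le_one _) (abs_nonneg _) (abs_cos_le_one _))
        have e : lam.real Set.univ = 2 * R := by
          simp [lam, measureReal_def]
          rw [ENNReal.toReal_ofReal (by positivity)]; ring
        rw [e, one_mul, Real.norm_eq_abs] at this
        exact (le_abs_self _).trans this)
      (fun n n' hn hnn => by
        have hb1 : 0 < β - 1 := by linarith
        have hU0 := h.rel.hU0
        have := integral_cos_cos_Icc (a := freq β U (s + n)) (b := freq β U (s + n')) (R := R)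
          (g := u * (β - 1) / δ) (by positivity) (by rw [freq]; positivity) (by
            have d1 : β ^ ((s:ℤ) + n') * β ≤ β ^ ((s:ℤ) + n) := by
              rw [← zpow_add_one₀ hβ0.ne']; exact zpow_le_zpow_right₀ hβ.le (by omega)
            have d2 : δ⁻¹ ≤ β ^ ((s:ℤ) + n') := by
              have : β ^ (s:ℤ) ≤ β ^ ((s:ℤ) + n') := zpow_le_zpow_right₀ hβ.le (by omega)
              refine le_trans ?_ this
              rw [zpow_neg] at hs
              exact inv_le_of_inv_le₀ (by positivity) hs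
            have d3 : u * (β - 1) / δ ≤ (2 * π) * (U * (β ^ ((s:ℤ) + n') * (β - 1))) := by
              have d4 : u * (β - 1) / δ ≤ U * (β ^ ((s:ℤ) + n') * (β - 1)) := by
                rw [div_eq_mul_inv, mul_assoc, mul_comm (β - 1)]
                gcongr; exact h.hu
              have d5 : 0 < U * (β ^ ((s:ℤ) + n') * (β - 1)) := by positivity
              nlinarith [pi_gt_three]
            have d6 : 2 * π * (U * (β ^ ((s:ℤ) + n') * β)) ≤ 2 * π * (U * β ^ ((s:ℤ) + n)) := by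
              gcongr
            simp only [freq]
            nlinarith) hR.le
        refine this.trans (le_of_eq ?_)
        field_simp)
    have hM := markov_sq (μ := lam) (f := S)
      (continuous_finsetSum _ fun i _ => by fun_prop) N (fun x => by
        refine (abs_sum_le_sum_abs _ _).trans ?_
        calc _ ≤ ∑ i ∈ range N, (1:ℝ) := sum_le_sum fun i _ => abs_cos_le_one _
          _ = N := by simp) (t := N * c / 2) (ε := ε) (by positivity) hV (by
        have e : (N * c / 2) ^ 2 * ε = (N:ℝ) ^ 2 * (c ^ 2 / 4 * ε) := by ring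
        rw [e]
        refine le_trans (le_of_eq ?_) (mul_le_mul_of_nonneg_left h2 (sq_nonneg (N:ℝ)))
        push_cast
        field_simp
        ring)
    rw [Measure.restrict_apply' measurableSet_Icc, Set.inter_comm] at hM
    exact hM

theorem singular (hβ : 1 < β) (hα : ‖α‖ = 1)
    (tr : ∀ l : ℤ, ∃ n : ℤ, β ^ l + β ^ (-l) + 2 * (α ^ l).re = n)
    (hi : IsIntegral ℤ β) (hi' : IsIntegral ℤ β⁻¹) :
    (bernoulliConvolution β⁻¹).MutuallySingular (volume : Measure ℝ) := by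
  obtain ⟨u, hu, μ, hμ, hgood⟩ := exists_good hβ hα tr hi hi'
  obtain ⟨d, hd0, hd⟩ := exists_small hβ
  apply sing_of_approx
  intro ε hε
  set R := (1 - β⁻¹)⁻¹ with hRdef
  have hR : 0 < R := by
    have : 0 < 1 - β⁻¹ := by have := inv_lt_one_of_one_lt₀ hβ; linarith
    positivity
  have hb1 : 0 < β - 1 := by linarith
  set C := 212 + 10 * R + 2 / (u * (β - 1)) with hC
  have hC0 : 0 < C := by positivity
  set κ := exp (-(8 / μ) * (20 * R + 320)) with hκ
  have hκ0 : 0 < κ := exp_pos _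
  set θ := ε * κ / (4 * C) with hθ
  have hθ0 : 0 < θ := by positivity
  obtain ⟨U, Z, D, σ, δ, E, h, hD, hδ, hE⟩ :=
    hgood (min (min (μ / 128) (θ ^ 16)) (min d (1 / 100))) (by positivity)
  have hδ0 := h.hδ
  have hδ1 : δ ≤ θ ^ 16 := hδ.trans ((min_le_left _ _).trans (min_le_right _ _))
  have hδ2 : δ ≤ d := hδ.trans ((min_le_right _ _).trans (min_le_left _ _))
  have hδ3 : δ ≤ 1 / 100 := hδ.trans ((min_le_right _ _).trans (min_le_right _ _))
  have hlog : 0 ≤ -log δ := by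
    have := log_nonpos hδ0.le (by linarith); linarith
  have hE' : E ≤ μ / 128 * (-log δ) :=
    hE.trans (mul_le_mul_of_nonneg_right ((min_le_left _ _).trans (min_le_left _ _)) hlog)
  set z := exp (log δ / 16) with hz
  have hz0 : 0 < z := exp_pos _
  have hz16 : z ^ 16 = δ := by
    rw [hz, ← exp_nat_mul]; push_cast
    rw [show 16 * (log δ / 16) = log δ by ring, exp_log hδ0]
  have hzθ : z ≤ θ := by
    rw [← hz16] at hδ1
    exact (pow_le_pow_iff_left₀ hz0.le hθ0.le (by norm_num)).mp hδ1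
  set y := z ^ 2 with hy
  have hy0 : 0 < y := by positivity
  have hy8 : y ^ 8 = δ := by rw [hy, ← pow_mul, hz16]
  have hy1 : y ≤ 1 := by
    by_contra hc; push Not at hc
    have : 1 < y ^ 8 := one_lt_pow₀ hc (by norm_num)
    linarith
  have hyp : ∀ k : ℕ, y ^ k ≤ 1 := fun k => pow_le_one₀ hy0.le hy1
  have hyp' : ∀ k : ℕ, y ^ (k + 1) ≤ y := fun k => by
    rw [pow_succ]; simpa using mul_le_mul_of_nonneg_right (hyp k) hy0.le
  have hDy : (D:ℝ) * y ^ 6 ≤ 1 := by
    have : ((D:ℝ) * y ^ 6) ^ 4 ≤ 1 := by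
      rw [← hy8] at hD; convert hD using 1; ring
    exact (pow_le_one_iff_of_nonneg (by positivity) (by norm_num)).mp this
  have ceil_facts : ∀ k : ℕ, 1 ≤ (⌈(y ^ k)⁻¹⌉₊ : ℝ) * y ^ k ∧ (⌈(y ^ k)⁻¹⌉₊ : ℝ) * y ^ k ≤ 2 := by
    intro k
    have hk : 0 < y ^ k := by positivity
    have a1 := Nat.le_ceil (y ^ k)⁻¹
    have a2 := Nat.ceil_lt_add_one (a := (y ^ k)⁻¹) (by positivity)
    constructor
    · calc (1:ℝ) = (y ^ k)⁻¹ * y ^ k := by field_simp
        _ ≤ _ := by gcongr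
    · calc _ ≤ ((y ^ k)⁻¹ + 1) * y ^ k := by gcongr
        _ = 1 + y ^ k := by field_simp
        _ ≤ 2 := by linarith [hyp k]
  obtain ⟨hs1, hs2⟩ := ceil_facts 6
  obtain ⟨hN1, hN2⟩ := ceil_facts 7
  set s := ⌈(y ^ 6)⁻¹⌉₊
  set N := ⌈(y ^ 7)⁻¹⌉₊
  have hN0' : (0:ℝ) < N := by
    by_contra hc; push Not at hc
    have : (N:ℝ) * y ^ 7 ≤ 0 := mul_nonpos_of_nonpos_of_nonneg hc (by positivity)
    linarith
  have hN0 : 0 < N := by exact_mod_cast hN0'
  have hs : β ^ (-(s:ℤ)) ≤ δ := by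
    refine hd δ hδ0 hδ2 s ?_
    have a1 : 1 ≤ ((s:ℝ) * y ^ 6) ^ 2 := one_le_pow₀ hs1
    have a2 : ((s:ℝ) * y ^ 6) ^ 2 = (s:ℝ) ^ 2 * y ^ 8 * y ^ 4 := by ring
    have a3 : (s:ℝ) ^ 2 * y ^ 8 * y ^ 4 ≤ (s:ℝ) ^ 2 * y ^ 8 * 1 := by gcongr; exact hyp 4
    rw [← hy8]; linarith
  have hNinv : 1 / (N:ℝ) ≤ y ^ 7 := by rw [div_le_iff₀ hN0']; linarith
  set c := exp (-(4 / μ) * (E + 20 * R + 320)) with hc
  have hcc : C * y ≤ c ^ 2 / 4 * ε := by
    have a1 : z * κ ≤ c ^ 2 := by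
      rw [hc, ← exp_nat_mul, hz, hκ, ← exp_add]
      apply exp_le_exp.mpr
      have : 8 / μ * E ≤ 8 / μ * (μ / 128 * (-log δ)) := by gcongr
      have e : 8 / μ * (μ / 128 * (-log δ)) = -(log δ / 16) := by field_simp; ring
      have e2 : (4 / μ) = (8 / μ) / 2 := by ring
      push_cast
      rw [e2]; nlinarith
    have a2 : C * θ = ε * κ / 4 := by rw [hθ]; field_simp
    calc C * y = C * z * z := by rw [hy]; ring
      _ ≤ C * θ * z := by gcongr
      _ = (z * κ) / 4 * ε := by rw [a2]; ring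
      _ ≤ c ^ 2 / 4 * ε := by gcongr
  have hδy : δ ≤ y := by rw [← hy8]; exact hyp' 7
  refine h.test hβ hα hu hμ hN0 hs hδ3 (c := c) (exp_pos _) ?_ (le_trans ?_ hcc) (le_trans ?_ hcc)
  · apply exp_le_exp.mpr
    have a1 : δ ^ 2 * ((s + N : ℕ) : ℝ) ≤ 4 := by
      rw [← hy8]; push_cast
      have e : (y ^ 8) ^ 2 * ((s:ℝ) + N) = (s * y ^ 6) * y ^ 10 + (N * y ^ 7) * y ^ 9 := by ring
      rw [e]
      have b1 : (s * y ^ 6) * y ^ 10 ≤ 2 * 1 := by gcongr; exact hyp 10
      have b2 : (N * y ^ 7) * y ^ 9 ≤ 2 * 1 := by gcongr; exact hyp 9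
      linarith
    have : 0 < 4 / μ := by positivity
    nlinarith
  · have a1 : 4 * (2 * ((D + 2 * s : ℕ) : ℝ) + 1) / N ≤ 44 * y := by
      push_cast
      calc 4 * (2 * ((D:ℝ) + 2 * s) + 1) / N = 4 * (2 * ((D:ℝ) + 2 * s) + 1) * (1 / N) := by ring
        _ ≤ 4 * (2 * ((D:ℝ) + 2 * s) + 1) * y ^ 7 := by gcongr
        _ = 4 * (2 * (D * y ^ 6 + 2 * (s * y ^ 6)) + y ^ 6) * y := by ring
        _ ≤ 4 * (2 * (1 + 2 * 2) + 1) * y := by gcongr; exact hyp 6
        _ = 44 * y := by ring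
    have a2 : 2 * π * δ * R ≤ 8 * R * y := by
      calc 2 * π * δ * R ≤ 2 * 4 * y * R := by gcongr; exact pi_lt_four.le
        _ = _ := by ring
    have a3 : 6 * π * δ * (N + D + 2 * s) ≤ 168 * y := by
      calc 6 * π * δ * (N + D + 2 * s) ≤ 6 * 4 * δ * (N + D + 2 * s) := by
            gcongr; exact pi_lt_four.le
        _ = 24 * ((N * y ^ 7) + (D * y ^ 6) * y + 2 * (s * y ^ 6) * y) * y := by rw [← hy8]; ring
        _ ≤ 24 * (2 + 1 * 1 + 2 * 2 * 1) * y := by gcongr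
        _ = 168 * y := by ring
    have a4 : 0 ≤ 2 / (u * (β - 1)) * y := by positivity
    have a5 : 0 ≤ R * y := by positivity
    rw [hC]; nlinarith
  · have a1 : 2 * R / N ≤ 2 * R * y := by
      calc 2 * R / N = 2 * R * (1 / N) := by ring
        _ ≤ 2 * R * y := by gcongr; exact hNinv.trans (hyp' 6)
    have a2 : 2 * δ / (u * (β - 1)) ≤ 2 / (u * (β - 1)) * y := by
      calc 2 * δ / (u * (β - 1)) = 2 / (u * (β - 1)) * δ := by ring
        _ ≤ _ := by gcongr
    have a5 : 0 ≤ R * y := by positivity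
    rw [hC]; nlinarith

end Crest.Agent.Salem
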