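import Crest.Agent.Salem.State

set_option autoImplicit false

open Real Finset

namespace Crest.Agent.Salem

variable {β : ℝ} {α : ℂ}

lemma cos_ne_zero_of_integral {x : ℝ} (hx : IsIntegral ℤ x) : cos (2 * π * x) ≠ 0 := by
  intro h
  obtain ⟨k, hk⟩ := cos_eq_zero_iff.mp h
  have hx2 : x = ((((2 * k + 1 : ℤ) : ℚ) / 4 : ℚ) : ℝ) := by
    have := pi_pos
    push_cast
    field_simp at hk
    linarith
  have hq : IsIntegral ℤ (((2 * k + 1 : ℤ) : ℚ) / 4 : ℚ) := by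
    rw [hx2] at hx
    exact (isIntegral_algebraMap_iff (R := ℤ) (A := ℚ) (B := ℝ) (algebraMap ℚ ℝ).injective).mp hx
  obtain ⟨y, hy⟩ := IsIntegrallyClosed.isIntegral_iff.mp hq
  have : ((4 * y : ℤ) : ℚ) = ((2 * k + 1 : ℤ) : ℚ) := by
    simp only [eq_intCast] at hy
    push_cast at hy ⊢
    linarith
  have : 4 * y = 2 * k + 1 := by exact_mod_cast this
  omega

lemma exists_pow_le (hβ : 1 < β) {ε : ℝ} (hε : 0 < ε) : ∃ s : ℕ, 0 < s ∧ β ^ (-(s:ℤ)) ≤ ε := by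
  obtain ⟨s, hs⟩ := exists_pow_lt_of_lt_one hε (inv_lt_one_of_one_lt₀ hβ)
  refine ⟨s + 1, by omega, ?_⟩
  have : β ^ (-((s + 1 : ℕ):ℤ)) ≤ β ^ (-(s:ℤ)) := zpow_le_zpow_right₀ hβ.le (by omega)
  refine this.trans ?_
  rw [zpow_neg, zpow_natCast, ← inv_pow]; exact hs.le

lemma base (hβ : 1 < β) (hα : ‖α‖ = 1)
    (tr : ∀ l : ℤ, ∃ n : ℤ, β ^ l + β ^ (-l) + 2 * (α ^ l).re = n)
    (hi : IsIntegral ℤ β) (hi' : IsIntegral ℤ β⁻¹) :
    ∃ u > 0, ∃ μ > 0, ∃ (U : ℝ) (Z : ℂ) (D : ℕ) (σ E : ℝ), Good β α u μ U Z D σ (1 / 16) E := by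
  classical
  have hβ0 : 0 < β := by linarith
  have h0 : Rel β α 1 1 0 1 := ⟨Or.inl rfl, one_pos, by simp, fun l => by simpa using tr l⟩
  obtain ⟨j, hj0, -, hj⟩ := dirichlet0 hα (J := 112) (by norm_num)
  have h1 := h0.step hβ hα hj0
  have hZ : ‖1 * (α ^ j - 1)‖ ≤ 1 / 16 := by rw [one_mul]; refine hj.trans ?_; norm_num
  set U := 1 * (β ^ j - 1)
  set D := 0 + j
  obtain ⟨s, hs0, hs⟩ := exists_pow_le hβ (ε := 1 / 16) (by norm_num)
  have hne : ∀ l : ℤ, cos (2 * π * (U * β ^ l)) ≠ 0 := by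
    intro l
    apply cos_ne_zero_of_integral
    refine IsIntegral.mul (IsIntegral.mul isIntegral_one ((hi.pow j).sub isIntegral_one)) ?_
    rcases Int.eq_nat_or_neg l with ⟨k, rfl | rfl⟩
    · simpa using hi.pow k
    · simpa using hi'.pow k
  obtain ⟨l0, -, hl0⟩ := exists_min_image (Finset.Icc (-(D:ℤ) - s) s)
    (fun l : ℤ => |cos (2 * π * (U * β ^ l))|) ⟨0, by simp⟩
  refine ⟨U, h1.hU0, min (1 / 4) |cos (2 * π * (U * β ^ l0))|,
    lt_min (by norm_num) (abs_pos.mpr (hne l0)), U, _, D, _,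
    10 * β ^ (D:ℤ) * (β ^ (D:ℤ) * (1 - β⁻¹)⁻¹), h1, le_rfl, by norm_num, hZ, fun l => ?_,
    fun F hF => ?_⟩
  · by_cases hl : l ∈ Finset.Icc (-(D:ℤ) - s) s
    · exact (min_le_right _ _).trans (hl0 l hl)
    · refine (min_le_left _ _).trans (le_trans ?_ (le_abs_self _))
      have hn : Near (U * β ^ l) 0 (3 / 16) := by
        rw [Finset.mem_Icc, not_and_or] at hl
        rcases hl with hl | hl
        · refine (h1.near_left hβ l).mono ?_
          have : β ^ ((D:ℤ) + l) ≤ β ^ (-(s:ℤ)) := zpow_le_zpow_right₀ hβ.le (by omega)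
          linarith
        · refine (h1.near_right hβ hα hZ l).mono ?_
          have : β ^ (-l) ≤ β ^ (-(s:ℤ)) := zpow_le_zpow_right₀ hβ.le (by omega)
          linarith
      have := hn.cos_ge
      linarith
  · have a1 : ∑ l ∈ F, sin (π * (U * β ^ l)) ^ 2
        ≤ ∑ l ∈ F, 10 * β ^ (D:ℤ) * β ^ ((D:ℤ) + l) := by
      refine sum_le_sum fun l hl => ?_
      have h2 := (h1.near_left hβ l).sin_sq_le_zero
      have h3 : β ^ ((D:ℤ) + l) ≤ β ^ (D:ℤ) := zpow_le_zpow_right₀ hβ.le (by linarith [hF l hl])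
      have h4 : 0 < β ^ ((D:ℤ) + l) := by positivity
      nlinarith
    rw [← mul_sum] at a1
    have c1 := sum_zpow_le hβ (F.image (fun l => (D:ℤ) + l)) D (by
      intro l hl
      obtain ⟨l', hl', rfl⟩ := mem_image.mp hl
      have := hF l' hl'; omega)
    rw [sum_image (by intro x _ y _ hxy; simpa using hxy)] at c1
    refine a1.trans ?_
    gcongr

lemma stage1 (hβ : 1 < β) (hα : ‖α‖ = 1) {u μ U : ℝ} {Z : ℂ} {D : ℕ} {σ E : ℝ} (hμ : 0 < μ)
    (h : Good β α u μ U Z D σ (1 / 16) E) {d : ℝ} (hd : 0 < d) :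
    ∃ (U' : ℝ) (Z' : ℂ) (D' : ℕ) (σ' δ' E' : ℝ),
      Good β α u (μ / 2 + 8 * π * δ') U' Z' D' σ' δ' E' ∧ δ' ≤ d ∧ D' * δ' ≤ 1 := by
  obtain ⟨s, hs0, hs⟩ := exists_pow_le hβ (ε := min (1 / 2) (μ / 64)) (by positivity)
  have hs1 := hs.trans (min_le_left _ _)
  have hs2 := hs.trans (min_le_right _ _)
  set m := D + 2 * s with hm
  have hm0 : 0 < m := by omega
  have hm1 : (1:ℝ) ≤ m := by exact_mod_cast hm0
  set e := min d (μ / 128) with he
  have he0 : 0 < e := by positivity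
  obtain ⟨J, hJ⟩ := exists_nat_ge (3 * (m:ℝ) ^ 2 + m / e)
  have hme : 0 < (m:ℝ) / e := by positivity
  have hJ1 : 3 * (m:ℝ) ^ 2 ≤ J := by linarith
  have hJ0' : (0:ℝ) < J := by nlinarith
  have hJ0 : 0 < J := by exact_mod_cast hJ0'
  have hJ2 : (m:ℝ) / J ≤ e := by
    have : (m:ℝ) / e ≤ J := by nlinarith
    rw [div_le_iff₀ he0] at this
    rw [div_le_iff₀ hJ0']; linarith
  have hDm : (D:ℝ) ≤ m := by have : D ≤ m := by omega
                             exact_mod_cast this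
  obtain ⟨j, hj, hcase⟩ := dirichlet hα hJ0 hm0
  have key : ∀ δ' : ℝ, 0 < δ' → 1 / 16 * ‖α ^ j - 1‖ ≤ δ' → δ' ≤ m / J →
      ((D + j : ℕ) : ℝ) * δ' ≤ 1 →
      ∃ (U' : ℝ) (Z' : ℂ) (D' : ℕ) (σ' δ' E' : ℝ),
      Good β α u (μ / 2 + 8 * π * δ') U' Z' D' σ' δ' E' ∧ δ' ≤ d ∧ D' * δ' ≤ 1 := by
    intro δ' hδ' hZ hle hD
    have h1 : δ' ≤ d := hle.trans (hJ2.trans (min_le_left _ _))
    have h2 : δ' ≤ μ / 128 := hle.trans (hJ2.trans (min_le_right _ _))
    refine ⟨_, _, _, _, δ', _, (h.step hβ hα hj hs1 hδ' hZ).mono ?_ le_rfl, h1, hD⟩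
    have hp := pi_pos
    have hp4 := pi_lt_four
    have a1 : π * β ^ (-(s:ℤ)) ≤ 4 * (μ / 64) := by
      have : 0 < β ^ (-(s:ℤ)) := by have : 0 < β := by linarith
                                    positivity
      gcongr
    have a2 : π * δ' ≤ 4 * (μ / 128) := by gcongr
    nlinarith
  rcases hcase with ⟨hjJ, hjα⟩ | ⟨hjm, hjα⟩
  · have hjJ' : (j:ℝ) ≤ J := by exact_mod_cast hjJ
    refine key (1 / 16 * (7 / J)) (by positivity) (by gcongr) ?_ ?_
    · rw [← mul_div_assoc]; gcongr; linarith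
    · have : ((D + j : ℕ) : ℝ) ≤ 2 * J := by push_cast; nlinarith
      calc _ ≤ (2 * J : ℝ) * (1 / 16 * (7 / J)) := by gcongr
        _ = 7 / 8 := by field_simp; norm_num
        _ ≤ 1 := by norm_num
  · have hjm' : (j:ℝ) ≤ 2 * m := by exact_mod_cast hjm
    refine key (1 / 16 * (14 * m / J)) (by positivity) (by gcongr) ?_ ?_
    · rw [← mul_div_assoc]; gcongr; linarith
    · have : ((D + j : ℕ) : ℝ) ≤ 3 * m := by push_cast; nlinarith
      calc _ ≤ (3 * m : ℝ) * (1 / 16 * (14 * m / J)) := by gcongr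
        _ = 7 / 8 * (3 * m ^ 2 / J) := by field_simp; norm_num
        _ ≤ 7 / 8 * 1 := by gcongr; rw [div_le_one hJ0']; exact hJ1
        _ ≤ 1 := by norm_num

theorem exists_good (hβ : 1 < β) (hα : ‖α‖ = 1)
    (tr : ∀ l : ℤ, ∃ n : ℤ, β ^ l + β ^ (-l) + 2 * (α ^ l).re = n)
    (hi : IsIntegral ℤ β) (hi' : IsIntegral ℤ β⁻¹) :
    ∃ u > 0, ∃ μ > 0, ∀ η > 0, ∃ (U : ℝ) (Z : ℂ) (D : ℕ) (σ δ E : ℝ),
      Good β α u μ U Z D σ δ E ∧ (D:ℝ) ^ 4 * δ ^ 3 ≤ 1 ∧ δ ≤ η ∧ E ≤ η * (-log δ) := by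
  obtain ⟨u, hu, μ, hμ, U0, Z0, D0, σ0, E0, h0⟩ := base hβ hα tr hi hi'
  obtain ⟨d, hd0, hd⟩ := exists_small hβ
  set d0 := min d (min (1 / 10 ^ 6) (exp (-1400))) with hd0def
  have hd00 : 0 < d0 := by positivity
  have hda : d0 ≤ d := min_le_left _ _
  have hdb : d0 ≤ 1 / 10 ^ 6 := (min_le_right _ _).trans (min_le_left _ _)
  have hdc : d0 ≤ exp (-1400) := (min_le_right _ _).trans (min_le_right _ _)
  obtain ⟨U1, Z1, D1, σ1, δ1, E1, h1, hδ1, hD1⟩ := stage1 hβ hα hμ h0 hd00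
  have hδ10 := h1.hδ
  obtain ⟨U2, Z2, D2, σ2, δ2, h2, hδ2, hD2⟩ := h1.step2 hβ hα hd (hδ1.trans hda) (hδ1.trans hdb)
    (M := δ1⁻¹) (by positivity) (by rw [← one_div, le_div_iff₀ hδ10]; exact hD1)
    (by
      have : δ1⁻¹ ^ 2 * δ1 = δ1⁻¹ := by field_simp
      rw [this, one_le_inv₀ hδ10]; linarith)
    (by rw [inv_mul_cancel₀ hδ10.ne'])
  set C := 672 * (1 - β⁻¹)⁻¹ + 5544 with hC
  have hC0 : 0 ≤ C := by
    have : 0 < 1 - β⁻¹ := by have := inv_lt_one_of_one_lt₀ hβ; linarith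
    positivity
  set A := 21 / 10 * E1 + C + C with hA
  have hlog : ∀ δ : ℝ, 0 < δ → δ ≤ d0 → 1400 ≤ -log δ := by
    intro δ hδ hle
    have := log_le_log hδ (hle.trans hdc)
    rw [log_exp] at this; linarith
  have ind : ∀ i : ℕ, ∃ (U : ℝ) (Z : ℂ) (D : ℕ) (σ δ E : ℝ),
      Good β α u (μ / 2 + 8 * π * δ) U Z D σ δ E ∧ (D:ℝ) ^ 4 * δ ^ 3 ≤ 1 ∧ δ ≤ d0 ∧
      E + C ≤ A * (21 / 10) ^ i ∧ (22 / 10 : ℝ) ^ i ≤ -log δ := by
    intro i
    induction i with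
    | zero =>
      have hle : δ2 ≤ d0 := by
        have e : 70 * δ1 ^ 3 * δ1⁻¹ = (70 * δ1) * δ1 := by field_simp
        have : (70 * δ1) * δ1 ≤ 1 * δ1 := by gcongr; linarith
        linarith
      refine ⟨_, _, _, _, _, _, h2, hD2, hle, by simp [hA], ?_⟩
      have := hlog δ2 h2.hδ hle
      simp; linarith
    | succ i ih =>
      obtain ⟨U, Z, D, σ, δ, E, hg, hD, hδ, hE, hb⟩ := ih
      have hδ0 := hg.hδ
      set y := sqrt (sqrt δ) with hy
      have hy0 : 0 < y := by positivity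
      have hy4 : y ^ 4 = δ := by
        rw [show y ^ 4 = (y ^ 2) ^ 2 by ring, hy, sq_sqrt (by positivity), sq_sqrt hδ0.le]
      have hy1 : y ≤ 1 := by
        by_contra hc; push Not at hc
        have : 1 < y ^ 4 := one_lt_pow₀ hc (by norm_num)
        linarith
      obtain ⟨U', Z', D', σ', δ', hg', hδ', hD'⟩ := hg.step2 hβ hα hd (hδ.trans hda)
        (hδ.trans hdb) (M := (y ^ 3)⁻¹) (by positivity)
        (by
          rw [← one_div, le_div_iff₀ (by positivity)]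
          have : ((D:ℝ) * y ^ 3) ^ 4 ≤ 1 := by
            rw [← hy4] at hD; convert hD using 1; ring
          exact (pow_le_one_iff_of_nonneg (by positivity) (by norm_num)).mp this)
        (by
          rw [← hy4]
          have : (y ^ 3)⁻¹ ^ 2 * y ^ 4 = (y ^ 2)⁻¹ := by field_simp
          rw [this, one_le_inv₀ (by positivity)]; nlinarith)
        (by
          rw [← hy4]
          have : (y ^ 3)⁻¹ * y ^ 4 = y := by field_simp
          rw [this]; exact hy1)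
      have hδ'9 : δ' ≤ 70 * y ^ 9 := by
        rw [← hy4] at hδ'
        convert hδ' using 1; field_simp
      have hb1 := hlog δ hδ0 hδ
      have hly : log δ = 4 * log y := by rw [← hy4, log_pow]; norm_num
      have hl' : log δ' ≤ 69 + 9 * log y := by
        have a1 := log_le_log hg'.hδ hδ'9
        rw [log_mul (by norm_num) (by positivity), log_pow] at a1
        have a2 := log_le_sub_one_of_pos (x := 70) (by norm_num)
        push_cast at a1
        linarith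
      have hle : δ' ≤ δ := by
        rw [← log_le_log_iff hg'.hδ hδ0]; linarith
      refine ⟨_, _, _, _, _, _, hg', hD', hle.trans hδ, ?_, ?_⟩
      · rw [pow_succ]; nlinarith
      · rw [pow_succ]; linarith
  refine ⟨u, hu, μ / 2, by positivity, fun η hη => ?_⟩
  have t1 : Filter.Tendsto (fun i : ℕ => |A| * (21 / 22 : ℝ) ^ i) Filter.atTop (nhds (|A| * 0)) :=
    (tendsto_pow_atTop_nhds_zero_of_lt_one (by norm_num) (by norm_num)).const_mul _
  rw [mul_zero] at t1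
  have t2 : Filter.Tendsto (fun i : ℕ => (22 / 10 : ℝ) ^ i) Filter.atTop Filter.atTop :=
    tendsto_pow_atTop_atTop_of_one_lt (by norm_num)
  obtain ⟨i, hi1, hi2⟩ := ((t1.eventually (ge_mem_nhds hη)).and
    (t2.eventually_ge_atTop (-log η))).exists
  obtain ⟨U, Z, D, σ, δ, E, hg, hD, hδ, hE, hb⟩ := ind i
  refine ⟨U, Z, D, σ, δ, E, hg.mono ?_ le_rfl, hD, ?_, ?_⟩
  · have := hg.hδ; have := pi_pos; have : 0 < 8 * π * δ := by positivity
    linarith
  · rw [← log_le_log_iff hg.hδ hη]; linarith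
  · have e : (21 / 10 : ℝ) ^ i = (21 / 22) ^ i * (22 / 10) ^ i := by rw [← mul_pow]; norm_num
    have a1 : A * (21 / 10) ^ i ≤ |A| * (21 / 10) ^ i := by gcongr; exact le_abs_self _
    have a2 : |A| * (21 / 10) ^ i ≤ η * (22 / 10) ^ i := by
      rw [e, ← mul_assoc]; gcongr
    have a3 : η * (22 / 10) ^ i ≤ η * (-log δ) := by gcongr
    linarith

end Crest.Agent.Salem
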