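import Crest.Agent.Salem.Trig

set_option autoImplicit false

open Real Finset

namespace Crest.Agent.Salem

/-- The trace relation satisfied by an element of `ℤ[β]` that is self-reciprocal up to sign. -/
structure Rel (β : ℝ) (α : ℂ) (U : ℝ) (Z : ℂ) (D : ℕ) (σ : ℝ) : Prop where
  hσ : σ = 1 ∨ σ = -1
  hU0 : 0 < U
  hU : U ≤ β ^ D
  rel : ∀ l : ℤ, ∃ n : ℤ, U * β ^ l + σ * (U * β ^ (-(D:ℤ) - l)) + 2 * (Z * α ^ l).re = n

section
variable {β : ℝ} {α : ℂ} {U : ℝ} {Z : ℂ} {D : ℕ} {σ : ℝ}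

lemma Rel.abs_le (hβ : 1 < β) (h : Rel β α U Z D σ) (l : ℤ) : |U * β ^ l| ≤ β ^ ((D:ℤ) + l) := by
  have hβ0 : 0 < β := by linarith
  have := h.hU0
  rw [abs_of_pos (by positivity), zpow_add₀ hβ0.ne', zpow_natCast]
  gcongr
  exact h.hU

lemma Rel.near_left (hβ : 1 < β) (h : Rel β α U Z D σ) (l : ℤ) :
    Near (U * β ^ l) 0 (β ^ ((D:ℤ) + l)) :=
  near_of_abs (by simpa using h.abs_le hβ l)

lemma abs_re_le (hα : ‖α‖ = 1) (Z : ℂ) (l : ℤ) : |2 * (Z * α ^ l).re| ≤ 2 * ‖Z‖ := by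
  rw [abs_mul, abs_two]
  have := Complex.abs_re_le_norm (Z * α ^ l)
  rw [norm_mul, norm_zpow, hα, one_zpow, mul_one] at this
  linarith

lemma Rel.abs_σ (h : Rel β α U Z D σ) : |σ| = 1 := by
  rcases h.hσ with h | h <;> simp [h]

lemma Rel.near_right (hβ : 1 < β) (hα : ‖α‖ = 1) (h : Rel β α U Z D σ) {δ : ℝ} (hZ : ‖Z‖ ≤ δ)
    (l : ℤ) : Near (U * β ^ l) 0 (β ^ (-l) + 2 * δ) := by
  obtain ⟨n, hn⟩ := h.rel l
  refine ⟨n, 1, Or.inl rfl, ?_⟩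
  have e : U * β ^ l - n - 1 * 0 = -(σ * (U * β ^ (-(D:ℤ) - l))) - 2 * (Z * α ^ l).re := by
    linarith
  rw [e]
  refine (abs_sub _ _).trans ?_
  have h1 := abs_re_le hα Z l
  have h2 := h.abs_le hβ (-(D:ℤ) - l)
  rw [show (D:ℤ) + (-(D:ℤ) - l) = -l by ring] at h2
  rw [abs_neg, abs_mul, h.abs_σ, one_mul]
  linarith

lemma Rel.step (hβ : 1 < β) (hα : ‖α‖ = 1) (h : Rel β α U Z D σ) {j : ℕ} (hj : 0 < j) :
    Rel β α (U * (β ^ j - 1)) (Z * (α ^ j - 1)) (D + j) (-σ) := by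
  have hβ0 : 0 < β := by linarith
  have hα0 : α ≠ 0 := by intro h0; simp [h0] at hα
  have hbj : 1 < β ^ j := one_lt_pow₀ hβ hj.ne'
  have hU0 := h.hU0
  refine ⟨?_, mul_pos h.hU0 (by linarith), ?_, fun l => ?_⟩
  · rcases h.hσ with h | h <;> simp [h]
  · rw [pow_add]
    have := h.hU
    have : U * (β ^ j - 1) ≤ U * β ^ j := by nlinarith
    calc U * (β ^ j - 1) ≤ U * β ^ j := this
      _ ≤ β ^ D * β ^ j := by gcongr
  · obtain ⟨n1, h1⟩ := h.rel (l + j)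
    obtain ⟨n2, h2⟩ := h.rel l
    refine ⟨n1 - n2, ?_⟩
    push_cast
    rw [← h1, ← h2]
    have e1 : β ^ (l + j) = β ^ l * β ^ j := by rw [zpow_add₀ hβ0.ne', zpow_natCast]
    have e2 : β ^ (-(D:ℤ) - l) = β ^ (-((D:ℤ) + j) - l) * β ^ j := by
      rw [← zpow_natCast, ← zpow_add₀ hβ0.ne']; congr 1; ring
    have e3 : β ^ (-(D:ℤ) - (l + j)) = β ^ (-((D:ℤ) + j) - l) := by congr 1; ring
    have e4 : Z * (α ^ j - 1) * α ^ l = Z * α ^ (l + j) - Z * α ^ l := by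
      rw [zpow_add₀ hα0, zpow_natCast]; ring
    rw [e1, e2, e3, e4, Complex.sub_re]
    ring

lemma Rel.step_left (hβ : 1 < β) (h : Rel β α U Z D σ) (j : ℕ) (l : ℤ) :
    Near (U * (β ^ j - 1) * β ^ l) (U * β ^ (l + j)) (β ^ ((D:ℤ) + l)) := by
  have hβ0 : 0 < β := by linarith
  apply near_of_abs
  have e1 : β ^ (l + j) = β ^ l * β ^ j := by rw [zpow_add₀ hβ0.ne', zpow_natCast]
  rw [e1, show U * (β ^ j - 1) * β ^ l - U * (β ^ l * β ^ j) = -(U * β ^ l) by ring, abs_neg]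
  exact h.abs_le hβ l

lemma Rel.step_right (hβ : 1 < β) (hα : ‖α‖ = 1) (h : Rel β α U Z D σ) {j : ℕ} (hj : 0 < j)
    {δ' : ℝ} (hZ : ‖Z * (α ^ j - 1)‖ ≤ δ') (l : ℤ) :
    Near (U * (β ^ j - 1) * β ^ l) (U * β ^ (-(D:ℤ) - l)) (β ^ (-(j:ℤ) - l) + 2 * δ') := by
  have hβ0 : 0 < β := by linarith
  obtain ⟨n, hn⟩ := (h.step hβ hα hj).rel l
  refine ⟨n, σ, h.hσ, ?_⟩
  have e2 : β ^ (-(D:ℤ) - l) = β ^ (-((D + j : ℕ):ℤ) - l) * β ^ j := by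
    rw [← zpow_natCast, ← zpow_add₀ hβ0.ne']; congr 1; push_cast; ring
  have e : U * (β ^ j - 1) * β ^ l - n - σ * (U * β ^ (-(D:ℤ) - l))
      = -(σ * (U * β ^ (-((D + j : ℕ):ℤ) - l))) - 2 * (Z * (α ^ j - 1) * α ^ l).re := by
    rw [← hn, e2]; ring
  rw [e]
  refine (abs_sub _ _).trans ?_
  have h1 := abs_re_le hα (Z * (α ^ j - 1)) l
  have h2 := h.abs_le hβ (-((D + j : ℕ):ℤ) - l)
  rw [show (D:ℤ) + (-((D + j : ℕ):ℤ) - l) = -(j:ℤ) - l by push_cast; ring] at h2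
  rw [abs_neg, abs_mul, h.abs_σ, one_mul]
  linarith

end

/-- A good state: trace relation, margin from the zeros of the cosine, bounded energy. -/
structure Good (β : ℝ) (α : ℂ) (u μ U : ℝ) (Z : ℂ) (D : ℕ) (σ δ E : ℝ) : Prop where
  rel : Rel β α U Z D σ
  hu : u ≤ U
  hδ : 0 < δ
  hZ : ‖Z‖ ≤ δ
  margin : ∀ l : ℤ, μ ≤ |cos (2 * π * (U * β ^ l))|
  energy : ∀ F : Finset ℤ, (∀ l ∈ F, l ≤ 0) → ∑ l ∈ F, sin (π * (U * β ^ l)) ^ 2 ≤ E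

section
variable {β : ℝ} {α : ℂ} {u μ U : ℝ} {Z : ℂ} {D : ℕ} {σ δ E : ℝ}

lemma Good.mono (h : Good β α u μ U Z D σ δ E) {μ' E' : ℝ} (hμ : μ' ≤ μ) (hE : E ≤ E') :
    Good β α u μ' U Z D σ δ E' :=
  ⟨h.rel, h.hu, h.hδ, h.hZ, fun l => hμ.trans (h.margin l), fun F hF => (h.energy F hF).trans hE⟩

lemma sum_zpow_neg_le (hβ : 1 < β) (F : Finset ℤ) (a : ℤ) (hF : ∀ l ∈ F, a ≤ l) :
    ∑ l ∈ F, β ^ (a - l) ≤ (1 - β⁻¹)⁻¹ := by
  have := sum_zpow_le hβ (F.image (fun l => a - l)) 0 (by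
    intro l hl
    obtain ⟨l', hl', rfl⟩ := mem_image.mp hl
    linarith [hF l' hl'])
  rw [sum_image (by intro x _ y _ hxy; simpa using hxy)] at this
  simpa using this

lemma card_le_of_Ioc (F : Finset ℤ) (a : ℤ) (L : ℕ) (hF : ∀ l ∈ F, a < l ∧ l ≤ a + L) :
    (F.card : ℝ) ≤ L := by
  have : F ⊆ Finset.Ioc a (a + L) := fun l hl => by simpa using hF l hl
  have h2 := card_le_card this
  simp at h2
  exact_mod_cast h2

lemma Good.energy_ext (hβ : 1 < β) (hα : ‖α‖ = 1) (h : Good β α u μ U Z D σ δ E)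
    (F : Finset ℤ) (L : ℕ) (hF : ∀ l ∈ F, l ≤ L) :
    ∑ l ∈ F, sin (π * (U * β ^ l)) ^ 2 ≤ E + 20 * (1 - β⁻¹)⁻¹ + 80 * δ ^ 2 * L := by
  classical
  have hβ0 : 0 < β := by linarith
  rw [← sum_filter_add_sum_filter_not F (fun l => l ≤ 0)]
  have h1 := h.energy (F.filter (fun l => l ≤ 0)) (fun l hl => (mem_filter.mp hl).2)
  have h2 : ∑ l ∈ F.filter (fun l => ¬ l ≤ 0), sin (π * (U * β ^ l)) ^ 2
      ≤ ∑ l ∈ F.filter (fun l => ¬ l ≤ 0), (20 * β ^ (0 - l) + 80 * δ ^ 2) := by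
    refine sum_le_sum fun l hl => ?_
    have hl0 : 0 < l := by simpa using (mem_filter.mp hl).2
    have h3 := (h.rel.near_right hβ hα h.hZ l).sin_sq_le_zero
    have h4 : β ^ (-l) ≤ 1 := zpow_le_one_of_nonpos₀ hβ.le (by linarith)
    have h5 : 0 < β ^ (-l) := by positivity
    rw [zero_sub]
    nlinarith [sq_nonneg (β ^ (-l) - 2 * δ)]
  rw [sum_add_distrib, ← mul_sum, sum_const, nsmul_eq_mul] at h2
  have h3 := sum_zpow_neg_le hβ (F.filter (fun l => ¬ l ≤ 0)) 0 (by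
    intro l hl; have := (mem_filter.mp hl).2; linarith)
  have h4 := card_le_of_Ioc (F.filter (fun l => ¬ l ≤ 0)) 0 L (by
    intro l hl; have := mem_filter.mp hl; constructor
    · linarith [this.2]
    · simpa using hF l this.1)
  have h5 : ((F.filter (fun l => ¬ l ≤ 0)).card : ℝ) * (80 * δ ^ 2) ≤ L * (80 * δ ^ 2) := by gcongr
  linarith

lemma Good.step (hβ : 1 < β) (hα : ‖α‖ = 1) (h : Good β α u μ U Z D σ δ E)
    {s j : ℕ} (hj : D + 2 * s ≤ j) (hs : β ^ (-(s:ℤ)) ≤ 1 / 2) {δ' : ℝ} (hδ' : 0 < δ')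
    (hZ : δ * ‖α ^ j - 1‖ ≤ δ') :
    Good β α u (μ - 2 * π * (β ^ (-(s:ℤ)) + 2 * δ')) (U * (β ^ j - 1)) (Z * (α ^ j - 1)) (D + j)
      (-σ) δ' (21 / 10 * E + 672 * (1 - β⁻¹)⁻¹ + 168 * δ ^ 2 * j + 1680 * δ' ^ 2 * j) := by
  classical
  have hβ0 : 0 < β := by linarith
  have hs0 : 0 < s := by
    rcases Nat.eq_zero_or_pos s with rfl | h0
    · norm_num at hs
    · exact h0
  have hj0 : 0 < j := by omega
  have hZ' : ‖Z * (α ^ j - 1)‖ ≤ δ' := by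
    rw [norm_mul]; exact le_trans (by gcongr; exact h.hZ) hZ
  have hmono : ∀ a b : ℤ, a ≤ b → β ^ a ≤ β ^ b := fun a b hab => zpow_le_zpow_right₀ hβ.le hab
  have hbj : 2 ≤ β ^ j := by
    have h1 : β ^ (-(j:ℤ)) ≤ 1 / 2 := (hmono _ _ (by omega)).trans hs
    rw [zpow_neg, zpow_natCast, inv_le_comm₀ (by positivity) (by norm_num)] at h1
    simpa using h1
  have hU0 := h.rel.hU0
  refine ⟨h.rel.step hβ hα hj0, ?_, hδ', hZ', fun l => ?_, fun F hF => ?_⟩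
  · have := h.hu; nlinarith
  · by_cases hl : l ≤ -(D:ℤ) - s
    · have h1 := ((h.rel.step_left hβ j l).mono (hmono _ (-(s:ℤ)) (by omega))).abs_cos_ge
      have h2 := h.margin (l + j)
      have : 0 ≤ 2 * π * (2 * δ') := by positivity
      linarith
    · have h1 := ((h.rel.step_right hβ hα hj0 hZ' l).mono
        (add_le_add_left (hmono _ (-(s:ℤ)) (by omega)) (2 * δ'))).abs_cos_ge
      have h2 := h.margin (-(D:ℤ) - l)
      linarith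
  · rw [← sum_filter_add_sum_filter_not F (fun l => l ≤ -(D:ℤ) - s)]
    set F1 := F.filter (fun l => l ≤ -(D:ℤ) - s)
    set F2 := F.filter (fun l => ¬ l ≤ -(D:ℤ) - s)
    have hF1 : ∀ l ∈ F1, l ≤ -(D:ℤ) - s := fun l hl => (mem_filter.mp hl).2
    have hF2 : ∀ l ∈ F2, -(D:ℤ) - s < l ∧ l ≤ 0 := fun l hl =>
      ⟨not_le.mp (mem_filter.mp hl).2, hF l (mem_filter.mp hl).1⟩
    have a1 : ∑ l ∈ F1, sin (π * (U * (β ^ j - 1) * β ^ l)) ^ 2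
        ≤ ∑ l ∈ F1, (21 / 20 * sin (π * (U * β ^ (l + j))) ^ 2 + 210 * β ^ ((D:ℤ) + l)) := by
      refine sum_le_sum fun l hl => ?_
      have h1 := (h.rel.step_left hβ j l).sin_sq_le
      have h4 : β ^ ((D:ℤ) + l) ≤ 1 := zpow_le_one_of_nonpos₀ hβ.le (by have := hF1 l hl; omega)
      have h5 : 0 < β ^ ((D:ℤ) + l) := by positivity
      nlinarith
    have a2 : ∑ l ∈ F2, sin (π * (U * (β ^ j - 1) * β ^ l)) ^ 2
        ≤ ∑ l ∈ F2, (21 / 20 * sin (π * (U * β ^ (-(D:ℤ) - l))) ^ 2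
          + 420 * β ^ (-(j:ℤ) - l) + 1680 * δ' ^ 2) := by
      refine sum_le_sum fun l hl => ?_
      have h1 := (h.rel.step_right hβ hα hj0 hZ' l).sin_sq_le
      have h4 : β ^ (-(j:ℤ) - l) ≤ 1 :=
        zpow_le_one_of_nonpos₀ hβ.le (by have := hF2 l hl; omega)
      have h5 : 0 < β ^ (-(j:ℤ) - l) := by positivity
      nlinarith [sq_nonneg (β ^ (-(j:ℤ) - l) - 2 * δ')]
    rw [sum_add_distrib, ← mul_sum, ← mul_sum] at a1
    rw [sum_add_distrib, sum_add_distrib, ← mul_sum, ← mul_sum, sum_const, nsmul_eq_mul] at a2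
    have b1 := h.energy_ext hβ hα (F1.image (fun l => l + j)) j (by
      intro l hl
      obtain ⟨l', hl', rfl⟩ := mem_image.mp hl
      have := hF1 l' hl'; omega)
    rw [sum_image (by intro x _ y _ hxy; simpa using hxy)] at b1
    have b2 := h.energy_ext hβ hα (F2.image (fun l => -(D:ℤ) - l)) j (by
      intro l hl
      obtain ⟨l', hl', rfl⟩ := mem_image.mp hl
      have := hF2 l' hl'; omega)
    rw [sum_image (by intro x _ y _ hxy; simpa using hxy)] at b2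
    have c1 := sum_zpow_le hβ (F1.image (fun l => (D:ℤ) + l)) 0 (by
      intro l hl
      obtain ⟨l', hl', rfl⟩ := mem_image.mp hl
      have := hF1 l' hl'; omega)
    rw [sum_image (by intro x _ y _ hxy; simpa using hxy), zpow_zero, one_mul] at c1
    have c2 := sum_zpow_neg_le hβ F2 (-(j:ℤ)) (by intro l hl; have := hF2 l hl; omega)
    have c3 := card_le_of_Ioc F2 (-(j:ℤ)) j (by intro l hl; have := hF2 l hl; omega)
    have c4 : (F2.card : ℝ) * (1680 * δ' ^ 2) ≤ j * (1680 * δ' ^ 2) := by gcongr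
    linarith

/-- The main recursive step. -/
lemma Good.step2 (hβ : 1 < β) (hα : ‖α‖ = 1) {d : ℝ}
    (hd : ∀ δ : ℝ, 0 < δ → δ ≤ d → ∀ s : ℕ, 1 ≤ (s:ℝ) ^ 2 * δ → β ^ (-(s:ℤ)) ≤ δ)
    (h : Good β α u (μ + 8 * π * δ) U Z D σ δ E) (hδd : δ ≤ d) (hδ6 : δ ≤ 1 / 10 ^ 6)
    {M : ℝ} (hM0 : 0 < M) (hDM : (D:ℝ) ≤ M) (hM1 : 1 ≤ M ^ 2 * δ) (hM2 : M * δ ≤ 1) :
    ∃ (U' : ℝ) (Z' : ℂ) (D' : ℕ) (σ' δ' : ℝ),
      Good β α u (μ + 8 * π * δ') U' Z' D' σ' δ' (21 / 10 * E + (672 * (1 - β⁻¹)⁻¹ + 5544)) ∧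
      δ' ≤ 70 * δ ^ 3 * M ∧ (D':ℝ) ^ 4 * δ' ^ 3 ≤ 1 := by
  have hδ := h.hδ
  have hMge : 1 ≤ M := by
    by_contra hc; push Not at hc
    have : M ^ 2 * δ < 1 := by nlinarith [mul_pos hM0 hM0]
    linarith
  set s := ⌈M⌉₊ with hsdef
  have hs1 : M ≤ s := Nat.le_ceil M
  have hs2 : (s:ℝ) ≤ 2 * M := by have := Nat.ceil_lt_add_one hM0.le; linarith
  have hs : β ^ (-(s:ℤ)) ≤ δ := hd δ hδ hδd s (hM1.trans (by gcongr))
  set J := ⌈(δ ^ 2)⁻¹⌉₊ with hJdef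
  have hδ2 : 1 ≤ (δ ^ 2)⁻¹ := by
    rw [one_le_inv₀ (by positivity)]; nlinarith
  have hJ1 : (δ ^ 2)⁻¹ ≤ J := Nat.le_ceil _
  have hJ2 : (J:ℝ) ≤ 2 * (δ ^ 2)⁻¹ := by
    have := Nat.ceil_lt_add_one (a := (δ ^ 2)⁻¹) (by positivity); linarith
  have hJ0 : 0 < J := by
    have : (0:ℝ) < J := by linarith
    exact_mod_cast this
  have hJ0' : (0:ℝ) < J := by exact_mod_cast hJ0
  have hJ3 : 1 / (J:ℝ) ≤ δ ^ 2 := by
    rw [one_div, inv_le_comm₀ hJ0' (by positivity)]; exact hJ1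
  have hJ4 : δ ^ 2 * J ≤ 2 := by
    calc δ ^ 2 * J ≤ δ ^ 2 * (2 * (δ ^ 2)⁻¹) := by gcongr
      _ = 2 := by field_simp
  have hm0 : 0 < D + 2 * s := by
    have : (0:ℝ) < s := by linarith
    have : 0 < s := by exact_mod_cast this
    omega
  have hm : ((D + 2 * s : ℕ) : ℝ) ≤ 5 * M := by push_cast; linarith
  obtain ⟨j, hj, hcase⟩ := dirichlet hα hJ0 hm0
  have key : ∀ δ' : ℝ, 0 < δ' → δ * ‖α ^ j - 1‖ ≤ δ' → δ' ≤ 70 * δ ^ 3 * M → δ ^ 2 * j ≤ 3 →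
      Good β α u (μ + 8 * π * δ') (U * (β ^ j - 1)) (Z * (α ^ j - 1)) (D + j) (-σ) δ'
        (21 / 10 * E + (672 * (1 - β⁻¹)⁻¹ + 5544)) := by
    intro δ' hδ' hZ hle hj3
    have hle2 : δ' ≤ δ / 2 := by
      have : 70 * δ ^ 3 * M = 70 * δ ^ 2 * (M * δ) := by ring
      have : 70 * δ ^ 2 * (M * δ) ≤ 70 * δ ^ 2 * 1 := by gcongr
      nlinarith
    refine (h.step hβ hα hj (by linarith) hδ' hZ).mono ?_ ?_
    · have := pi_pos
      have : π * β ^ (-(s:ℤ)) ≤ π * δ := by gcongr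
      have : π * δ' ≤ π * (δ / 2) := by gcongr
      nlinarith
    · have : δ' ^ 2 * j ≤ δ ^ 2 * j := by gcongr; linarith
      nlinarith
  rcases hcase with ⟨hjJ, hjα⟩ | ⟨hjm, hjα⟩
  · have hjJ' : (j:ℝ) ≤ J := by exact_mod_cast hjJ
    refine ⟨_, _, _, _, 7 * δ ^ 3, key _ (by positivity) ?_ ?_ ?_, ?_, ?_⟩
    · calc δ * ‖α ^ j - 1‖ ≤ δ * (7 * (1 / J)) := by gcongr; rw [mul_one_div]; exact hjα
        _ ≤ δ * (7 * δ ^ 2) := by gcongr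
        _ = 7 * δ ^ 3 := by ring
    · have : 0 < δ ^ 3 := by positivity
      nlinarith
    · have : δ ^ 2 * j ≤ δ ^ 2 * J := by gcongr
      linarith
    · have : 0 < δ ^ 3 := by positivity
      nlinarith
    · have h1 : ((D + j : ℕ) : ℝ) * δ ^ 2 ≤ 3 := by
        push_cast
        have : (D:ℝ) * δ ^ 2 ≤ M * δ ^ 2 := by gcongr
        have : δ ^ 2 * j ≤ δ ^ 2 * J := by gcongr
        nlinarith
      have h2 : (((D + j : ℕ) : ℝ) * δ ^ 2) ^ 4 ≤ 3 ^ 4 := by gcongr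
      have e : ((D + j : ℕ) : ℝ) ^ 4 * (7 * δ ^ 3) ^ 3
          = (((D + j : ℕ) : ℝ) * δ ^ 2) ^ 4 * (343 * δ) := by ring
      rw [e]
      calc _ ≤ 3 ^ 4 * (343 * (1 / 10 ^ 6 : ℝ)) := by gcongr
        _ ≤ 1 := by norm_num
  · have hjm' : (j:ℝ) ≤ 10 * M := by
      have : (j:ℝ) ≤ ((2 * (D + 2 * s) : ℕ) : ℝ) := by exact_mod_cast hjm
      push_cast at this hm; linarith
    refine ⟨_, _, _, _, 70 * δ ^ 3 * M, key _ (by positivity) ?_ le_rfl ?_, le_rfl, ?_⟩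
    · calc δ * ‖α ^ j - 1‖ ≤ δ * (14 * ((D + 2 * s : ℕ) : ℝ) * (1 / J)) := by
            gcongr; rw [mul_one_div]; exact hjα
        _ ≤ δ * (14 * (5 * M) * δ ^ 2) := by gcongr
        _ = 70 * δ ^ 3 * M := by ring
    · have : δ ^ 2 * j ≤ δ ^ 2 * (10 * M) := by gcongr
      nlinarith
    · have h1 : ((D + j : ℕ) : ℝ) * δ ≤ 11 := by
        push_cast
        have : (D + j : ℝ) * δ ≤ (11 * M) * δ := by gcongr; linarith
        nlinarith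
      have h2 : (((D + j : ℕ) : ℝ) * δ) ^ 4 ≤ 11 ^ 4 := by gcongr
      have h3 : (M * δ) ^ 3 ≤ 1 := pow_le_one₀ (by positivity) hM2
      have e : ((D + j : ℕ) : ℝ) ^ 4 * (70 * δ ^ 3 * M) ^ 3
          = (((D + j : ℕ) : ℝ) * δ) ^ 4 * (M * δ) ^ 3 * (70 ^ 3 * δ ^ 2) := by ring
      rw [e]
      calc _ ≤ 11 ^ 4 * 1 * (70 ^ 3 * (1 / 10 ^ 6 : ℝ) ^ 2) := by gcongr
        _ ≤ 1 := by norm_num

end

end Crest.Agent.Salem
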