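import Mathlib

set_option autoImplicit false

open Real Finset

namespace Crest.Agent.Salem

/-- `x` is within `ρ` of `± y` modulo integers. -/
def Near (x y ρ : ℝ) : Prop :=
  ∃ (n : ℤ) (τ : ℝ), (τ = 1 ∨ τ = -1) ∧ |x - n - τ * y| ≤ ρ

lemma Near.mono {x y ρ ρ' : ℝ} (h : Near x y ρ) (hρ : ρ ≤ ρ') : Near x y ρ' := by
  obtain ⟨n, τ, hτ, h⟩ := h
  exact ⟨n, τ, hτ, h.trans hρ⟩

lemma near_of_abs {x y ρ : ℝ} (h : |x - y| ≤ ρ) : Near x y ρ :=
  ⟨0, 1, Or.inl rfl, by simpa using h⟩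

lemma Near.nonneg {x y ρ : ℝ} (h : Near x y ρ) : 0 ≤ ρ := by
  obtain ⟨n, τ, -, h⟩ := h
  exact (abs_nonneg _).trans h

lemma Near.cos_close {x y ρ : ℝ} (h : Near x y ρ) :
    |cos (2 * π * x) - cos (2 * π * y)| ≤ 2 * π * ρ := by
  obtain ⟨n, τ, hτ, h⟩ := h
  have h1 : cos (2 * π * x) = cos (2 * π * (x - n)) := by
    rw [← cos_add_int_mul_two_pi (2 * π * (x - n)) n]; congr 1; ring
  have h2 : cos (2 * π * y) = cos (2 * π * (τ * y)) := by
    rcases hτ with rfl | rfl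
    · simp
    · rw [show 2 * π * (-1 * y) = -(2 * π * y) by ring, cos_neg]
  rw [h1, h2]
  refine (abs_cos_sub_cos_le _ _).trans ?_
  rw [← mul_sub, abs_mul, abs_of_pos (by positivity : (0:ℝ) < 2 * π)]
  gcongr

lemma Near.abs_cos_ge {x y ρ : ℝ} (h : Near x y ρ) :
    |cos (2 * π * y)| - 2 * π * ρ ≤ |cos (2 * π * x)| := by
  have h1 := h.cos_close
  have h2 := abs_sub_abs_le_abs_sub (cos (2 * π * y)) (cos (2 * π * x))
  rw [abs_sub_comm] at h2
  linarith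

lemma Near.abs_sin_le {x y ρ : ℝ} (h : Near x y ρ) :
    |sin (π * x)| ≤ |sin (π * y)| + π * ρ := by
  obtain ⟨n, τ, hτ, h⟩ := h
  have h1 : |sin (π * x)| = |sin (π * (x - n))| := by
    have := sin_add_int_mul_pi (π * (x - n)) n
    rw [show π * (x - n) + n * π = π * x by ring] at this
    rw [this, abs_mul, abs_zpow]; simp
  have h2 : |sin (π * y)| = |sin (π * (τ * y))| := by
    rcases hτ with rfl | rfl
    · simp
    · rw [show π * (-1 * y) = -(π * y) by ring, sin_neg, abs_neg]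
  rw [h1, h2]
  have h3 := abs_sin_sub_sin_le (π * (x - n)) (π * (τ * y))
  have h4 : |π * (x - n) - π * (τ * y)| ≤ π * ρ := by
    rw [← mul_sub, abs_mul, abs_of_pos pi_pos]; gcongr
  have h5 := abs_sub_abs_le_abs_sub (sin (π * (x - n))) (sin (π * (τ * y)))
  linarith

lemma Near.sin_sq_le {x y ρ : ℝ} (h : Near x y ρ) :
    sin (π * x) ^ 2 ≤ 21 / 20 * sin (π * y) ^ 2 + 210 * ρ ^ 2 := by
  have h1 := h.abs_sin_le
  have h0 := h.nonneg
  have hpi : π ^ 2 ≤ 10 := by nlinarith [pi_lt_d2, pi_pos]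
  have h2 : sin (π * x) ^ 2 ≤ (|sin (π * y)| + π * ρ) ^ 2 := by
    rw [← sq_abs (sin (π * x))]; gcongr
  have h3 : (|sin (π * y)| + π * ρ) ^ 2 ≤ 21 / 20 * |sin (π * y)| ^ 2 + 21 * (π * ρ) ^ 2 := by
    nlinarith [sq_nonneg (|sin (π * y)| - 20 * (π * ρ))]
  rw [sq_abs] at h3
  have h4 : (π * ρ) ^ 2 ≤ 10 * ρ ^ 2 := by rw [mul_pow]; gcongr
  linarith

lemma Near.sin_sq_le_zero {x ρ : ℝ} (h : Near x 0 ρ) : sin (π * x) ^ 2 ≤ 10 * ρ ^ 2 := by
  have h1 := h.abs_sin_le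
  have h0 := h.nonneg
  have hpi : π ^ 2 ≤ 10 := by nlinarith [pi_lt_d2, pi_pos]
  simp only [mul_zero, sin_zero, abs_zero, zero_add] at h1
  have h2 : sin (π * x) ^ 2 ≤ (π * ρ) ^ 2 := by
    rw [← sq_abs (sin (π * x))]; gcongr
  have h4 : (π * ρ) ^ 2 ≤ 10 * ρ ^ 2 := by rw [mul_pow]; gcongr
  linarith

lemma Near.abs_sin_two_le {x ρ : ℝ} (h : Near x 0 ρ) : |sin (2 * π * x)| ≤ 2 * π * ρ := by
  obtain ⟨n, τ, hτ, h⟩ := h
  have h1 : sin (2 * π * x) = sin (2 * π * (x - n)) := by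
    rw [← sin_add_int_mul_two_pi (2 * π * (x - n)) n]; congr 1; ring
  rw [h1]
  refine abs_sin_le_abs.trans ?_
  rw [abs_mul, abs_of_pos (by positivity : (0:ℝ) < 2 * π)]
  simp only [mul_zero, sub_zero] at h
  gcongr

lemma Near.cos_ge {x ρ : ℝ} (h : Near x 0 ρ) : 1 - 20 * ρ ^ 2 ≤ cos (2 * π * x) := by
  have h1 := h.sin_sq_le_zero
  rw [show 2 * π * x = 2 * (π * x) by ring, cos_two_mul, cos_sq']
  linarith

/-- With a margin `μ`, the cosine is bounded below by an exponential of the energy. -/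
lemma exp_le_abs_cos {x μ : ℝ} (hμ : 0 < μ) (h : μ ≤ |cos (2 * π * x)|) :
    exp (-(4 / μ) * sin (π * x) ^ 2) ≤ |cos (2 * π * x)| := by
  have hμ1 : μ ≤ 1 := h.trans (abs_cos_le_one _)
  set s := sin (π * x) ^ 2 with hs
  have hs0 : 0 ≤ s := sq_nonneg _
  have hc : cos (2 * π * x) = 1 - 2 * s := by
    rw [show 2 * π * x = 2 * (π * x) by ring, cos_two_mul, cos_sq']; ring
  have hK : 4 ≤ 4 / μ := by rw [le_div_iff₀ hμ]; linarith
  by_cases h4 : s ≤ 1 / 4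
  · have h1 : exp (-(4 / μ) * s) ≤ exp (-(4 * s)) := by
      apply exp_le_exp.mpr; nlinarith
    have h2 : exp (-(4 * s)) ≤ 1 - 2 * s := by
      rw [exp_neg, inv_le_iff_one_le_mul₀ (exp_pos _)]
      have := add_one_le_exp (4 * s)
      nlinarith
    rw [hc]
    exact h1.trans (h2.trans (le_abs_self _))
  · push Not at h4
    have h1 : exp (-(4 / μ) * s) ≤ exp (-(1 / μ)) := by
      apply exp_le_exp.mpr
      have : 0 < 1 / μ := by positivity
      have e : 4 / μ = 4 * (1 / μ) := by ring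
      rw [e]; nlinarith
    have h2 : exp (-(1 / μ)) ≤ μ := by
      rw [exp_neg, inv_le_iff_one_le_mul₀ (exp_pos _)]
      have := add_one_le_exp (1 / μ)
      have e : μ * (1 / μ) = 1 := by field_simp
      nlinarith
    exact h1.trans (h2.trans h)

lemma abs_prod_sub_prod_le {ι : Type*} (s : Finset ι) (a b : ι → ℝ)
    (ha : ∀ i ∈ s, |a i| ≤ 1) (hb : ∀ i ∈ s, |b i| ≤ 1) :
    |∏ i ∈ s, a i - ∏ i ∈ s, b i| ≤ ∑ i ∈ s, |a i - b i| := by
  classical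
  induction s using Finset.induction_on with
  | empty => simp
  | insert i s hi ih =>
    rw [prod_insert hi, prod_insert hi, sum_insert hi]
    have ih' := ih (fun j hj => ha j (mem_insert_of_mem hj)) (fun j hj => hb j (mem_insert_of_mem hj))
    have hA : |∏ j ∈ s, a j| ≤ 1 := by
      rw [Finset.abs_prod]
      exact prod_le_one (fun _ _ => abs_nonneg _) (fun j hj => ha j (mem_insert_of_mem hj))
    have hbi := hb i (mem_insert_self _ _)
    have e : a i * ∏ j ∈ s, a j - b i * ∏ j ∈ s, b j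
        = (a i - b i) * ∏ j ∈ s, a j + b i * (∏ j ∈ s, a j - ∏ j ∈ s, b j) := by ring
    rw [e]
    refine (abs_add_le _ _).trans ?_
    rw [abs_mul, abs_mul]
    have h1 : |a i - b i| * |∏ j ∈ s, a j| ≤ |a i - b i| := by
      simpa using mul_le_mul_of_nonneg_left hA (abs_nonneg (a i - b i))
    have h2 : |b i| * |∏ j ∈ s, a j - ∏ j ∈ s, b j| ≤ |∏ j ∈ s, a j - ∏ j ∈ s, b j| := by
      simpa using mul_le_mul_of_nonneg_right hbi (abs_nonneg (∏ j ∈ s, a j - ∏ j ∈ s, b j))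
    linarith

/-- Geometric sums over a finite set of integers bounded above. -/
lemma sum_zpow_le {γ : ℝ} (hγ : 1 < γ) (F : Finset ℤ) (L : ℤ) (hF : ∀ l ∈ F, l ≤ L) :
    ∑ l ∈ F, γ ^ l ≤ γ ^ L * (1 - γ⁻¹)⁻¹ := by
  classical
  have hγ0 : 0 < γ := by linarith
  have hr : γ⁻¹ < 1 := inv_lt_one_of_one_lt₀ hγ
  have hr0 : 0 ≤ γ⁻¹ := by positivity
  have hs := hasSum_geometric_of_lt_one hr0 hr
  have e : ∑ l ∈ F, γ ^ l = γ ^ L * ∑ k ∈ F.image (fun l => (L - l).toNat), γ⁻¹ ^ k := by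
    rw [sum_image, mul_sum]
    · refine sum_congr rfl fun l hl => ?_
      have h1 : ((L - l).toNat : ℤ) = L - l := Int.toNat_of_nonneg (by linarith [hF l hl])
      rw [inv_pow, ← zpow_natCast, h1, ← zpow_neg, ← zpow_add₀ hγ0.ne']
      congr 1; ring
    · intro a ha b hb hab
      have h1 : ((L - a).toNat : ℤ) = L - a := Int.toNat_of_nonneg (by linarith [hF a ha])
      have h2 : ((L - b).toNat : ℤ) = L - b := Int.toNat_of_nonneg (by linarith [hF b hb])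
      simp only at hab
      rw [hab] at h1; linarith
  rw [e]
  gcongr
  exact sum_le_hasSum _ (fun _ _ => by positivity) hs

lemma norm_pow_sub_one_le {z : ℂ} (hz : ‖z‖ = 1) (t : ℕ) : ‖z ^ t - 1‖ ≤ t * ‖z - 1‖ := by
  induction t with
  | zero => simp
  | succ t ih =>
    have e : z ^ (t + 1) - 1 = z * (z ^ t - 1) + (z - 1) := by ring
    rw [e]
    refine (norm_add_le _ _).trans ?_
    rw [norm_mul, hz]; push_cast; linarith

lemma dirichlet0 {α : ℂ} (hα : ‖α‖ = 1) {J : ℕ} (hJ : 0 < J) :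
    ∃ j : ℕ, 0 < j ∧ j ≤ J ∧ ‖α ^ j - 1‖ ≤ 7 / J := by
  obtain ⟨k, hk0, hkJ, hk⟩ := Real.exists_nat_abs_mul_sub_round_le (Complex.arg α / (2 * π)) hJ
  refine ⟨k, hk0, hkJ, ?_⟩
  set r := round ((k : ℝ) * (Complex.arg α / (2 * π)))
  have hαe : α = Complex.exp (Complex.arg α * Complex.I) := by
    have := Complex.norm_mul_exp_arg_mul_I α
    rw [hα] at this; simpa using this.symm
  have e : α ^ k = Complex.exp (Complex.I * ((2 * π * (k * (Complex.arg α / (2 * π)) - r) : ℝ) : ℂ)) := by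
    have h2 : (2 * π * (k * (Complex.arg α / (2 * π)) - r) : ℝ) = k * Complex.arg α - r * (2 * π) := by
      field_simp
    rw [h2]
    conv_lhs => rw [hαe]
    rw [← Complex.exp_nat_mul]
    push_cast
    rw [mul_sub, Complex.exp_sub, show Complex.I * ((r : ℂ) * (2 * π)) = r * (2 * π * Complex.I) by ring,
      Complex.exp_int_mul_two_pi_mul_I]
    simp; ring_nf
  rw [e]
  refine Real.norm_exp_I_mul_ofReal_sub_one_le.trans ?_
  rw [Real.norm_eq_abs, abs_mul, abs_of_pos (by positivity : (0:ℝ) < 2 * π)]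
  have hJ' : (0:ℝ) < J := by exact_mod_cast hJ
  calc 2 * π * |k * (Complex.arg α / (2 * π)) - r| ≤ 7 * (1 / (J + 1)) := by
        gcongr; linarith [pi_lt_d2]
    _ ≤ 7 * (1 / J) := by gcongr; linarith
    _ = 7 / J := by ring

lemma dirichlet {α : ℂ} (hα : ‖α‖ = 1) {J : ℕ} (hJ : 0 < J) {m : ℕ} (hm : 0 < m) :
    ∃ j : ℕ, m ≤ j ∧ ((j ≤ J ∧ ‖α ^ j - 1‖ ≤ 7 / J) ∨ (j ≤ 2 * m ∧ ‖α ^ j - 1‖ ≤ 14 * m / J)) := by
  obtain ⟨j, hj0, hjJ, hj⟩ := dirichlet0 hα hJ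
  by_cases h : m ≤ j
  · exact ⟨j, h, Or.inl ⟨hjJ, hj⟩⟩
  · push Not at h
    refine ⟨j * (m / j + 1), ?_, Or.inr ⟨?_, ?_⟩⟩
    · have := Nat.lt_mul_div_succ m hj0; omega
    · have := Nat.mul_div_le m j; rw [mul_add]; omega
    · rw [pow_mul]
      refine (norm_pow_sub_one_le (by rw [norm_pow, hα, one_pow]) _).trans ?_
      have h1 : m / j + 1 ≤ 2 * m := by have := Nat.div_le_self m j; omega
      have h2 : ((m / j + 1 : ℕ) : ℝ) ≤ 2 * m := by exact_mod_cast h1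
      calc ((m / j + 1 : ℕ) : ℝ) * ‖α ^ j - 1‖ ≤ (2 * m) * (7 / J) := by gcongr
        _ = 14 * m / J := by ring

/-- For small `δ`, every `s ≥ δ^{-1/2}` has `β^{-s} ≤ δ`. -/
lemma exists_small {β : ℝ} (hβ : 1 < β) : ∃ d > 0, ∀ δ : ℝ, 0 < δ → δ ≤ d → ∀ s : ℕ,
    1 ≤ (s:ℝ) ^ 2 * δ → β ^ (-(s:ℤ)) ≤ δ := by
  have hl : 0 < log β := log_pos hβ
  refine ⟨log β ^ 4 / 24, by positivity, fun δ hδ hd s hs => ?_⟩
  have hβ0 : 0 < β := by linarith
  have h1 : β ^ s = exp (s * log β) := by rw [exp_nat_mul, exp_log hβ0]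
  have h2 := Real.pow_div_factorial_le_exp (x := s * log β) (by positivity) 4
  rw [← h1] at h2
  have h3 : ((Nat.factorial 4 : ℕ) : ℝ) = 24 := by norm_num [Nat.factorial]
  rw [h3] at h2
  rw [zpow_neg, zpow_natCast, inv_le_iff_one_le_mul₀ (by positivity)]
  have h4 : 1 ≤ ((s:ℝ) ^ 2 * δ) ^ 2 := one_le_pow₀ hs
  have h5 : (s:ℝ) ^ 4 * δ ≤ (s * log β) ^ 4 / 24 := by
    rw [mul_pow, mul_div_assoc]; gcongr
  nlinarith

end Crest.Agent.Salem
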